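import Vale.Agent.P083.Fill

/-!
# Cuntz families of arbitrary finite size and isometries onto complements
-/

open scoped InnerProductSpace

set_option linter.unusedSectionVars false

namespace Vale.Agent.P083

variable {B : Type*} [CStarAlgebra B]

/-- Cuntz families indexed by `Fin (n+1)`. -/
lemma exists_cuntz_family_fin {s₁ s₂ : B} (h : IsCuntzPair s₁ s₂) (n : ℕ) :
    ∃ g : Fin (n + 1) → B, (∀ i j, star (g i) * g j = if i = j then 1 else 0) ∧
      ∑ i, g i * star (g i) = 1 := by
  refine ⟨fun k => if (k : ℕ) < n then ySeq s₁ s₂ k else s₂ ^ n, ?_, ?_⟩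
  · intro i j
    by_cases hi : (i : ℕ) < n <;> by_cases hj : (j : ℕ) < n
    · simp only [hi, hj, if_true]
      rw [h.star_ySeq_mul]
      simp [Fin.ext_iff]
    · simp only [hi, hj, if_true, if_false]
      rw [h.star_ySeq_mul_pow₂ hi, if_neg]
      intro e; rw [e] at hi; exact hj hi
    · simp only [hi, hj, if_true, if_false]
      have := congrArg star (h.star_ySeq_mul_pow₂ hj)
      rw [star_mul, star_star, star_zero] at this
      rw [this, if_neg]
      intro e; rw [e] at hi; exact hi hj
    · simp only [hi, hj, if_false]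
      rw [h.star_pow₂_mul_pow₂, if_pos]
      apply Fin.ext
      have := i.2; have := j.2
      omega
  · rw [Fin.sum_univ_castSucc]
    simp only [Fin.val_castSucc, Fin.is_lt, if_true, Fin.val_last, lt_irrefl, if_false]
    rw [Fin.sum_univ_eq_sum_range (fun k => ySeq s₁ s₂ k * star (ySeq s₁ s₂ k)) n]
    exact h.sum_ySeq_add_pow₂ n

/-- Cuntz families indexed by an arbitrary nonempty finite type. -/
lemma exists_cuntz_family {s₁ s₂ : B} (h : IsCuntzPair s₁ s₂) (J : Type*) [Fintype J]
    [DecidableEq J] [Nonempty J] :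
    ∃ g : J → B, (∀ i j, star (g i) * g j = if i = j then 1 else 0) ∧
      ∑ i, g i * star (g i) = 1 := by
  obtain ⟨n, hn⟩ : ∃ n, Fintype.card J = n + 1 :=
    ⟨Fintype.card J - 1, by have := Fintype.card_pos (α := J); omega⟩
  obtain ⟨g, hg1, hg2⟩ := exists_cuntz_family_fin h n
  let ε : J ≃ Fin (n + 1) := Fintype.equivFinOfCardEq hn
  refine ⟨fun i => g (ε i), fun i j => ?_, ?_⟩
  · rw [hg1]; simp
  · rw [← hg2]
    exact Equiv.sum_comp ε (fun k => g k * star (g k))

/-- the row built from two orthonormal families -/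
lemma row_isometry {J : Type*} [Fintype J] [DecidableEq J] (t g : J → B)
    (ht : ∀ i j, star (t i) * t j = if i = j then 1 else 0)
    (hg : ∀ i j, star (g i) * g j = if i = j then 1 else 0) :
    star (∑ j, t j * star (g j)) * (∑ j, t j * star (g j)) = ∑ j, g j * star (g j) ∧
    (∑ j, t j * star (g j)) * star (∑ j, t j * star (g j)) = ∑ j, t j * star (t j) := by
  constructor
  · rw [star_sum, Finset.sum_mul]
    refine Finset.sum_congr rfl fun i _ => ?_
    rw [Finset.mul_sum, Finset.sum_eq_single i]
    · rw [star_mul, star_star]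
      calc g i * star (t i) * (t i * star (g i)) = g i * (star (t i) * t i) * star (g i) := by
            noncomm_ring
        _ = _ := by rw [ht, if_pos rfl, mul_one]
    · intro j _ hj
      rw [star_mul, star_star]
      calc g i * star (t i) * (t j * star (g j)) = g i * (star (t i) * t j) * star (g j) := by
            noncomm_ring
        _ = 0 := by rw [ht, if_neg hj.symm]; simp
    · simp
  · rw [star_sum, Finset.sum_mul]
    refine Finset.sum_congr rfl fun i _ => ?_
    rw [Finset.mul_sum, Finset.sum_eq_single i]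
    · rw [star_mul, star_star]
      calc t i * star (g i) * (g i * star (t i)) = t i * (star (g i) * g i) * star (t i) := by
            noncomm_ring
        _ = _ := by rw [hg, if_pos rfl, mul_one]
    · intro j _ hj
      rw [star_mul, star_star]
      calc t i * star (g i) * (g j * star (t j)) = t i * (star (g i) * g j) * star (t j) := by
            noncomm_ring
        _ = 0 := by rw [hg, if_neg hj.symm]; simp
    · simp

variable {H : Type*} [NormedAddCommGroup H] [InnerProductSpace ℂ H]

section
variable (T : H →ₗ[ℂ] B) {E₂ : Submodule ℂ H}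
  (hT : ∀ x ∈ E₂, ∀ y ∈ E₂, star (T x) * T y = ⟪x, y⟫_ℂ • (1 : B))
include hT

lemma sumProj_mul_T {L : Type*} [Fintype L] (w : L → H) (hw : ∀ l, w l ∈ E₂) {y : H}
    (hy : y ∈ E₂) :
    (∑ l, T (w l) * star (T (w l))) * T y = T (∑ l, ⟪w l, y⟫_ℂ • w l) := by
  rw [Finset.sum_mul, map_sum]
  refine Finset.sum_congr rfl fun l _ => ?_
  rw [mul_assoc, hT _ (hw l) _ hy, map_smul]
  simp

end

omit [CStarAlgebra B] in
lemma sum_inner_smul_basis {E : Submodule ℂ H} {m : ℕ} (u : OrthonormalBasis (Fin m) ℂ E)
    {x : H} (hx : x ∈ E) : ∑ l : Fin m, ⟪(u l : H), x⟫_ℂ • (u l : H) = x := by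
  have h1 := u.sum_repr' ⟨x, hx⟩
  have h2 := congrArg (Subtype.val) h1
  simpa [Submodule.coe_sum, Submodule.coe_inner] using h2

/-- **Complement isometry.**  For a finite orthonormal family `x` in `E₂` there is an isometry of
`B` whose range projection is `1 - ∑ T (x l) T (x l)*`. -/
lemma exists_complement_isometry {s₁ s₂ : B} (h : IsCuntzPair s₁ s₂) {E₂ : Submodule ℂ H}
    [FiniteDimensional ℂ E₂] {N : ℕ} (e : OrthonormalBasis (Fin N) ℂ E₂)
    {L : Type*} [Fintype L] (x : L → H) (hx : Orthonormal ℂ x) (hxE : ∀ l, x l ∈ E₂) :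
    ∃ c : B, star c * c = 1 ∧
      c * star c = 1 - ∑ l, tauMap s₁ s₂ e (x l) * star (tauMap s₁ s₂ e (x l)) := by
  classical
  set T := tauMap s₁ s₂ e with hTdef
  have hT : ∀ x ∈ E₂, ∀ y ∈ E₂, star (T x) * T y = ⟪x, y⟫_ℂ • (1 : B) :=
    fun x hx y hy => star_tauMap_mul_tauMap h e hx hy
  set K : Submodule ℂ H := Submodule.span ℂ (Set.range x) with hK
  set D : Submodule ℂ H := Kᗮ ⊓ E₂ with hD
  haveI : FiniteDimensional ℂ D := Submodule.finiteDimensional_of_le (inf_le_right : D ≤ E₂)
  set dd := stdOrthonormalBasis ℂ D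
  set M := Module.finrank ℂ D
  have hddE : ∀ j, (dd j : H) ∈ E₂ := fun j => (inf_le_right : D ≤ E₂) (dd j).2
  have hddK : ∀ j, (dd j : H) ∈ Kᗮ := fun j => (inf_le_left : D ≤ Kᗮ) (dd j).2
  -- the resolution of the identity
  set p : B := ∑ k, T (e k : H) * star (T (e k : H)) with hp
  have hpT : ∀ y ∈ E₂, p * T y = T y := by
    intro y hy
    rw [hp, sumProj_mul_T T hT (fun k => (e k : H)) (fun k => (e k).2) hy,
      sum_inner_smul_basis e hy]
  have hTp : ∀ y ∈ E₂, star (T y) * p = star (T y) := by
    intro y hy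
    have h1 := congrArg star (hpT y hy)
    have h2 : star p = p := by simp [hp, star_sum]
    rwa [star_mul, h2] at h1
  set X : B := (∑ l, T (x l) * star (T (x l))) + ∑ j, T (dd j : H) * star (T (dd j : H)) with hX
  have hXT : ∀ y ∈ E₂, X * T y = T y := by
    intro y hy
    set yK : H := ∑ l, ⟪x l, y⟫_ℂ • x l with hyK
    have hyKK : yK ∈ K := Submodule.sum_mem _ fun l _ =>
      Submodule.smul_mem _ _ (Submodule.subset_span ⟨l, rfl⟩)
    have hyKE : yK ∈ E₂ := Submodule.sum_mem _ fun l _ => Submodule.smul_mem _ _ (hxE l)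
    have horth : y - yK ∈ Kᗮ := by
      rw [Submodule.mem_orthogonal]
      intro w hw
      induction hw using Submodule.span_induction with
      | mem w hw =>
        obtain ⟨l, rfl⟩ := hw
        rw [inner_sub_right, hyK, inner_sum, Finset.sum_eq_single l]
        · rw [inner_smul_right, orthonormal_iff_ite.mp hx l l]; simp
        · intro l' _ hl'
          rw [inner_smul_right, orthonormal_iff_ite.mp hx l l', if_neg hl'.symm, mul_zero]
        · simp
      | zero => simp
      | add a b _ _ ha hb => rw [inner_add_left, ha, hb, add_zero]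
      | smul c a _ ha => rw [inner_smul_left, ha, mul_zero]
    have hmemD : y - yK ∈ D := ⟨horth, Submodule.sub_mem _ hy hyKE⟩
    have h2 : ∑ j, ⟪(dd j : H), y⟫_ℂ • (dd j : H) = y - yK := by
      rw [← sum_inner_smul_basis dd hmemD]
      refine Finset.sum_congr rfl fun j _ => ?_
      congr 1
      rw [inner_sub_right, (Submodule.mem_orthogonal' K _).mp (hddK j) yK hyKK, sub_zero]
    rw [hX, add_mul, sumProj_mul_T T hT x hxE hy,
      sumProj_mul_T T hT (fun j => (dd j : H)) hddE hy, h2, ← map_add]
    congr 1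
    abel
  have hXp : X * p = X := by
    rw [hX, add_mul, Finset.sum_mul, Finset.sum_mul]
    congr 1
    · refine Finset.sum_congr rfl fun l _ => ?_
      rw [mul_assoc, hTp _ (hxE l)]
    · refine Finset.sum_congr rfl fun j _ => ?_
      rw [mul_assoc, hTp _ (hddE j)]
  have hXeq : X = p := by
    rw [← hXp]
    conv_lhs => rw [hp, Finset.mul_sum]
    rw [hp]
    refine Finset.sum_congr rfl fun k _ => ?_
    rw [← mul_assoc, hXT _ (e k).2]
  -- `T (e k) = y k`
  have hTe : ∀ k : Fin N, T (e k : H) = ySeq s₁ s₂ k := by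
    intro k
    rw [hTdef, tauMap_apply, Finset.sum_eq_single k]
    · rw [← Submodule.coe_inner, orthonormal_iff_ite.mp e.orthonormal k k]; simp
    · intro j _ hj
      rw [← Submodule.coe_inner, orthonormal_iff_ite.mp e.orthonormal j k, if_neg hj, zero_smul]
    · simp
  have hp1 : p + s₂ ^ N * star (s₂ ^ N) = 1 := by
    rw [hp]
    simp only [hTe]
    rw [Fin.sum_univ_eq_sum_range (fun k => ySeq s₁ s₂ k * star (ySeq s₁ s₂ k)) N]
    exact h.sum_ySeq_add_pow₂ N
  -- the two orthonormal families
  obtain ⟨g, hg1, hg2⟩ := exists_cuntz_family h (Option (Fin M))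
  let t : Option (Fin M) → B := fun o => o.elim (s₂ ^ N) (fun j => T (dd j : H))
  have ht : ∀ i j, star (t i) * t j = if i = j then 1 else 0 := by
    intro i j
    rcases i with _ | i <;> rcases j with _ | j
    · simpa [t] using h.star_pow₂_mul_pow₂ N
    · have := congrArg star (star_tauMap_mul_pow₂ h e (dd j : H))
      simpa [t] using this
    · simpa [t] using star_tauMap_mul_pow₂ h e (dd i : H)
    · simp only [t, Option.elim_some]
      rw [hT _ (hddE i) _ (hddE j), ← Submodule.coe_inner,
        orthonormal_iff_ite.mp dd.orthonormal i j]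
      by_cases hij : i = j <;> simp [hij]
  obtain ⟨hr1, hr2⟩ := row_isometry t g ht hg1
  refine ⟨∑ j, t j * star (g j), by rw [hr1, hg2], ?_⟩
  rw [hr2, Fintype.sum_option]
  simp only [t, Option.elim_none, Option.elim_some]
  have h3 : ∑ j, T (dd j : H) * star (T (dd j : H)) = p - ∑ l, T (x l) * star (T (x l)) := by
    rw [← hXeq, hX]; abel
  rw [h3, ← hp1]
  abel

end Vale.Agent.P083
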