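import Vale.Agent.P083.Defs

/-!
# Cuntz pairs in a unital C*-algebra: elementary algebra

`s₁ s₂` are isometries with `s₁ s₁* + s₂ s₂* = 1`.  We build the sequence
`y m = s₂ ^ m * s₁` of isometries with pairwise orthogonal ranges.
-/

namespace Vale.Agent.P083

variable {B : Type*} [CStarAlgebra B]

namespace IsCuntzPair

variable {s₁ s₂ : B} (h : IsCuntzPair s₁ s₂)
include h

lemma star₂_mul₁ : star s₂ * s₁ = 0 := by
  have h1 : star s₁ * (s₁ * star s₁ + s₂ * star s₂) * s₁ = 1 := by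
    rw [h.sum_eq, mul_one, h.iso₁]
  have h2 : star s₁ * (s₁ * star s₁ + s₂ * star s₂) * s₁
      = (star s₁ * s₁) * (star s₁ * s₁) + star (star s₂ * s₁) * (star s₂ * s₁) := by
    simp only [star_mul, star_star]
    noncomm_ring
  rw [h2, h.iso₁, mul_one] at h1
  have h3 : star (star s₂ * s₁) * (star s₂ * s₁) = 0 := by
    simpa using h1
  exact (CStarRing.star_mul_self_eq_zero_iff _).mp h3

lemma star₁_mul₂ : star s₁ * s₂ = 0 := by
  have := congrArg star h.star₂_mul₁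
  simpa using this

lemma star_pow₂_mul_pow₂ (m : ℕ) : star (s₂ ^ m) * s₂ ^ m = 1 := by
  induction m with
  | zero => simp
  | succ m ih =>
    rw [pow_succ', star_mul]
    calc star (s₂ ^ m) * star s₂ * (s₂ * s₂ ^ m)
        = star (s₂ ^ m) * (star s₂ * s₂) * s₂ ^ m := by noncomm_ring
      _ = 1 := by rw [h.iso₂, mul_one, ih]

end IsCuntzPair

/-- The sequence `y m = s₂ ^ m * s₁` of isometries with pairwise orthogonal ranges. -/
def ySeq (s₁ s₂ : B) (m : ℕ) : B := s₂ ^ m * s₁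

namespace IsCuntzPair

variable {s₁ s₂ : B} (h : IsCuntzPair s₁ s₂)
include h

lemma star_ySeq_mul_self (m : ℕ) : star (ySeq s₁ s₂ m) * ySeq s₁ s₂ m = 1 := by
  unfold ySeq
  rw [star_mul]
  calc star s₁ * star (s₂ ^ m) * (s₂ ^ m * s₁)
      = star s₁ * (star (s₂ ^ m) * s₂ ^ m) * s₁ := by noncomm_ring
    _ = 1 := by rw [h.star_pow₂_mul_pow₂, mul_one, h.iso₁]

lemma star_pow₂_mul_pow₂_add (m k : ℕ) : star (s₂ ^ m) * s₂ ^ (m + k) = s₂ ^ k := by
  rw [pow_add, ← mul_assoc, h.star_pow₂_mul_pow₂, one_mul]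

lemma star_ySeq_mul_lt {m k : ℕ} (hmk : m < k) : star (ySeq s₁ s₂ m) * ySeq s₁ s₂ k = 0 := by
  obtain ⟨d, rfl⟩ := Nat.exists_eq_add_of_lt hmk
  unfold ySeq
  rw [star_mul]
  calc star s₁ * star (s₂ ^ m) * (s₂ ^ (m + d + 1) * s₁)
      = star s₁ * (star (s₂ ^ m) * s₂ ^ (m + (d + 1))) * s₁ := by
        rw [add_assoc]; noncomm_ring
    _ = (star s₁ * s₂) * s₂ ^ d * s₁ := by
        rw [h.star_pow₂_mul_pow₂_add, pow_succ']; noncomm_ring
    _ = 0 := by rw [h.star₁_mul₂]; simp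

lemma star_ySeq_mul_ne {m k : ℕ} (hmk : m ≠ k) : star (ySeq s₁ s₂ m) * ySeq s₁ s₂ k = 0 := by
  rcases lt_or_gt_of_ne hmk with hlt | hgt
  · exact h.star_ySeq_mul_lt hlt
  · have := congrArg star (h.star_ySeq_mul_lt hgt)
    simpa using this

lemma star_ySeq_mul (m k : ℕ) :
    star (ySeq s₁ s₂ m) * ySeq s₁ s₂ k = if m = k then 1 else 0 := by
  split_ifs with hmk
  · subst hmk; exact h.star_ySeq_mul_self m
  · exact h.star_ySeq_mul_ne hmk

/-- `y k` for `k < N` is orthogonal to the range of `s₂ ^ N`. -/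
lemma star_ySeq_mul_pow₂ {k N : ℕ} (hk : k < N) : star (ySeq s₁ s₂ k) * s₂ ^ N = 0 := by
  obtain ⟨d, rfl⟩ := Nat.exists_eq_add_of_lt hk
  unfold ySeq
  rw [star_mul]
  calc star s₁ * star (s₂ ^ k) * s₂ ^ (k + d + 1)
      = star s₁ * (star (s₂ ^ k) * s₂ ^ (k + (d + 1))) := by rw [add_assoc]; noncomm_ring
    _ = (star s₁ * s₂) * s₂ ^ d := by
        rw [h.star_pow₂_mul_pow₂_add, pow_succ']; noncomm_ring
    _ = 0 := by rw [h.star₁_mul₂]; simp

/-- `∑_{k<N} y k (y k)* + s₂^N (s₂^N)* = 1`. -/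
lemma sum_ySeq_add_pow₂ (N : ℕ) :
    (∑ k ∈ Finset.range N, ySeq s₁ s₂ k * star (ySeq s₁ s₂ k)) + s₂ ^ N * star (s₂ ^ N) = 1 := by
  induction N with
  | zero => simp
  | succ N ih =>
    rw [Finset.sum_range_succ]
    have key : ySeq s₁ s₂ N * star (ySeq s₁ s₂ N) + s₂ ^ (N + 1) * star (s₂ ^ (N + 1))
        = s₂ ^ N * star (s₂ ^ N) := by
      unfold ySeq
      rw [pow_succ, star_mul, star_mul]
      calc s₂ ^ N * s₁ * (star s₁ * star (s₂ ^ N)) + s₂ ^ N * s₂ * (star s₂ * star (s₂ ^ N))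
          = s₂ ^ N * (s₁ * star s₁ + s₂ * star s₂) * star (s₂ ^ N) := by noncomm_ring
        _ = s₂ ^ N * star (s₂ ^ N) := by rw [h.sum_eq, mul_one]
    rw [add_assoc, key, ih]

end IsCuntzPair

end Vale.Agent.P083
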