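import Mathlib

/-!
# Definitions for Kirchberg's embedding problem (P083)
-/

open Filter Topology

namespace Vale.Agent.P083

universe u

/-- A Cuntz pair in a unital C*-algebra: two isometries whose range projections add up to `1`. -/
structure IsCuntzPair {B : Type*} [CStarAlgebra B] (s₁ s₂ : B) : Prop where
  iso₁ : star s₁ * s₁ = 1
  iso₂ : star s₂ * s₂ = 1
  sum_eq : s₁ * star s₁ + s₂ * star s₂ = 1

/-- `B` is a copy of the Cuntz algebra `O₂`: a nonzero unital C*-algebra generated, as a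
C*-algebra, by a Cuntz pair.  (By Cuntz's uniqueness theorem all such algebras are isomorphic to
the universal one.) -/
def IsCuntzO2 (B : Type*) [CStarAlgebra B] : Prop :=
  Nontrivial B ∧ ∃ s₁ s₂ : B, IsCuntzPair s₁ s₂ ∧
    (StarAlgebra.adjoin ℂ ({s₁, s₂} : Set B)).topologicalClosure = ⊤

/-- The sequence `b` belongs to `I_ω(B)`, i.e. `lim_{n → ω} ‖b n‖ = 0`. -/
def InUltraIdeal {B : Type*} [CStarAlgebra B] (ω : Ultrafilter ℕ) (b : ℕ → B) : Prop :=
  Tendsto (fun n => ‖b n‖) (ω : Filter ℕ) (𝓝 0)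

/-- `A` admits a unital embedding into the norm ultrapower `B^ω = ℓ^∞(ℕ, B) / I_ω(B)`:
there is a map `Φ` from `A` to the bounded sequences in `B` which, modulo `I_ω(B)`, is additive,
homogeneous, multiplicative, star-preserving, unital and injective. -/
def UnitallyEmbedsInUltrapower (A B : Type*) [CStarAlgebra A] [CStarAlgebra B]
    (ω : Ultrafilter ℕ) : Prop :=
  ∃ Φ : A → ℕ → B,
    (∀ a, ∃ C : ℝ, ∀ n, ‖Φ a n‖ ≤ C) ∧
    (∀ a b, InUltraIdeal ω (fun n => Φ (a + b) n - (Φ a n + Φ b n))) ∧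
    (∀ (c : ℂ) a, InUltraIdeal ω (fun n => Φ (c • a) n - c • Φ a n)) ∧
    (∀ a b, InUltraIdeal ω (fun n => Φ (a * b) n - Φ a n * Φ b n)) ∧
    (∀ a, InUltraIdeal ω (fun n => Φ (star a) n - star (Φ a n))) ∧
    InUltraIdeal ω (fun n => Φ 1 n - 1) ∧
    (∀ a, InUltraIdeal ω (Φ a) → a = 0)

/-- `w` is a family of isometries of `C` with `(w i)* (w j) = 0` (orthogonal ranges) whenever
`R i j`. -/
def IsIsometryFamily {ι : Type*} (R : ι → ι → Prop) {C : Type*} [CStarAlgebra C] (w : ι → C) :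
    Prop :=
  (∀ i, star (w i) * w i = 1) ∧ ∀ i j, R i j → star (w i) * w j = 0

/-- `(A, v)` is the universal unital C*-algebra generated by isometries `v i` subject to the
orthogonality relations `(v i)* (v j) = 0` for `R i j`. -/
structure IsUniversalIsometryAlgebra {ι : Type*} (R : ι → ι → Prop) (A : Type u) [CStarAlgebra A]
    (v : ι → A) : Prop where
  rel : IsIsometryFamily R v
  gen : (StarAlgebra.adjoin ℂ (Set.range v)).topologicalClosure = ⊤
  univ : ∀ (C : Type u) [CStarAlgebra C] (w : ι → C), IsIsometryFamily R w →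
    ∃ φ : A →⋆ₐ[ℂ] C, ∀ i, φ (v i) = w i

end Vale.Agent.P083
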