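import Vale.Agent.P083.Defs

/-!
# Definitions for free products of Cuntz, Cuntz-Toeplitz and circle algebras (P083)
-/

namespace Vale.Agent.P083

universe u

/-- `w` is a family of Cuntz type in `C`.  The generators are split into groups by `grp`.
All `w i` are isometries, two different generators of the same group have orthogonal ranges, and
in a group `g` with `full g` the range projections add up to `1`. -/
structure IsCuntzTypeFamily {ι G : Type*} [Fintype ι] [DecidableEq G] (grp : ι → G)
    (full : G → Prop) {C : Type*} [CStarAlgebra C] (w : ι → C) : Prop where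
  iso : ∀ i, star (w i) * w i = 1
  orth : ∀ i j, i ≠ j → grp i = grp j → star (w i) * w j = 0
  sum_eq : ∀ i, full (grp i) →
    ∑ j ∈ Finset.univ.filter (fun j => grp j = grp i), w j * star (w j) = 1

/-- `(A, v)` is the universal unital C*-algebra generated by a family of Cuntz type, that is the
unital full free product, over the groups `g`, of the Cuntz algebras `O_n` (`full g`, `n` the size
of the group, `O_1 = C(T)`) and of the Cuntz-Toeplitz algebras `E_n` (otherwise, `E_1` the Toeplitz
algebra). -/
structure IsUniversalCuntzTypeAlgebra {ι G : Type*} [Fintype ι] [DecidableEq G] (grp : ι → G)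
    (full : G → Prop) (A : Type u) [CStarAlgebra A] (v : ι → A) : Prop where
  rel : IsCuntzTypeFamily grp full v
  gen : (StarAlgebra.adjoin ℂ (Set.range v)).topologicalClosure = ⊤
  univ : ∀ (C : Type u) [CStarAlgebra C] (w : ι → C), IsCuntzTypeFamily grp full w →
    ∃ φ : A →⋆ₐ[ℂ] C, ∀ i, φ (v i) = w i

/-- `(A; a₁, a₂, b₁, b₂)` is the unital full free product `O₂ * O₂`: the universal unital
C*-algebra generated by two Cuntz pairs. -/
structure IsFreeProductO2O2 (A : Type u) [CStarAlgebra A] (a₁ a₂ b₁ b₂ : A) : Prop where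
  pair_a : IsCuntzPair a₁ a₂
  pair_b : IsCuntzPair b₁ b₂
  gen : (StarAlgebra.adjoin ℂ ({a₁, a₂, b₁, b₂} : Set A)).topologicalClosure = ⊤
  univ : ∀ (C : Type u) [CStarAlgebra C] (c₁ c₂ d₁ d₂ : C), IsCuntzPair c₁ c₂ →
    IsCuntzPair d₁ d₂ → ∃ φ : A →⋆ₐ[ℂ] C, φ a₁ = c₁ ∧ φ a₂ = c₂ ∧ φ b₁ = d₁ ∧ φ b₂ = d₂

end Vale.Agent.P083
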