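import Vale.Agent.P083.Frame

/-!
# Dilating finite pieces of isometries on Hilbert space to isometries of `B`
-/

open scoped InnerProductSpace

set_option linter.unusedSectionVars false

namespace Vale.Agent.P083

variable {B : Type*} [CStarAlgebra B]
variable {H : Type*} [NormedAddCommGroup H] [InnerProductSpace ℂ H] [CompleteSpace H]
variable {ι : Type*}

section abstract

variable (T : H →ₗ[ℂ] B) {E E₂ : Submodule ℂ H} {m : ℕ} (u : OrthonormalBasis (Fin m) ℂ E)

/-- the finite rank part of the dilation of `v` -/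
noncomputable def aEl (v : H →L[ℂ] H) : B := ∑ l : Fin m, T (v (u l : H)) * star (T (u l : H))

/-- the projection of `B` corresponding to `E` -/
noncomputable def qEl : B := ∑ l : Fin m, T (u l : H) * star (T (u l : H))

/-- the dilation of `v` with junk isometry `z` -/
noncomputable def wEl (v : H →L[ℂ] H) (z : B) : B := aEl T u v + z * (1 - qEl T u)

variable (hT : ∀ x ∈ E₂, ∀ y ∈ E₂, star (T x) * T y = ⟪x, y⟫_ℂ • (1 : B)) (hE : E ≤ E₂)
include hT hE

lemma star_T_u_mul (l l' : Fin m) :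
    star (T (u l : H)) * T (u l' : H) = if l = l' then 1 else 0 := by
  rw [hT _ (hE (u l).2) _ (hE (u l').2), ← Submodule.coe_inner,
    orthonormal_iff_ite.mp u.orthonormal l l']
  split_ifs <;> simp

lemma star_qEl : star (qEl T u) = qEl T u := by
  simp [qEl, star_sum]

omit hT hE in
lemma star_qEl' : star (qEl T u) = qEl T u := by
  simp [qEl, star_sum]

lemma star_aEl_mul_aEl (v v' : H →L[ℂ] H) (hv : ∀ x ∈ E, v x ∈ E₂) (hv' : ∀ x ∈ E, v' x ∈ E₂) :
    star (aEl T u v) * aEl T u v'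
      = ∑ l : Fin m, ∑ l' : Fin m,
          ⟪v (u l : H), v' (u l' : H)⟫_ℂ • (T (u l : H) * star (T (u l' : H))) := by
  simp only [aEl, star_sum, star_mul, star_star]
  rw [Finset.sum_mul]
  refine Finset.sum_congr rfl fun l _ => ?_
  rw [Finset.mul_sum]
  refine Finset.sum_congr rfl fun l' _ => ?_
  calc T (u l : H) * star (T (v (u l : H))) * (T (v' (u l' : H)) * star (T (u l' : H)))
      = T (u l : H) * (star (T (v (u l : H))) * T (v' (u l' : H))) * star (T (u l' : H)) := by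
        noncomm_ring
    _ = _ := by
        rw [hT _ (hv _ (u l).2) _ (hv' _ (u l').2)]
        simp

lemma star_aEl_mul_aEl_self (v : H →L[ℂ] H) (hv : ∀ x ∈ E, v x ∈ E₂)
    (hiso : ∀ x y, ⟪v x, v y⟫_ℂ = ⟪x, y⟫_ℂ) :
    star (aEl T u v) * aEl T u v = qEl T u := by
  rw [star_aEl_mul_aEl T u hT hE v v hv hv, qEl]
  refine Finset.sum_congr rfl fun l _ => ?_
  rw [Finset.sum_eq_single l]
  · rw [hiso, ← Submodule.coe_inner, orthonormal_iff_ite.mp u.orthonormal l l]
    simp
  · intro l' _ hl'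
    rw [hiso, ← Submodule.coe_inner, orthonormal_iff_ite.mp u.orthonormal l l', if_neg hl'.symm,
      zero_smul]
  · simp

lemma star_aEl_mul_aEl_orth (v v' : H →L[ℂ] H) (hv : ∀ x ∈ E, v x ∈ E₂)
    (hv' : ∀ x ∈ E, v' x ∈ E₂) (horth : ∀ x y, ⟪v x, v' y⟫_ℂ = 0) :
    star (aEl T u v) * aEl T u v' = 0 := by
  rw [star_aEl_mul_aEl T u hT hE v v' hv hv']
  simp [horth]

lemma qEl_mul_qEl : qEl T u * qEl T u = qEl T u := by
  simp only [qEl]
  rw [Finset.sum_mul]
  refine Finset.sum_congr rfl fun l _ => ?_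
  rw [Finset.mul_sum, Finset.sum_eq_single l]
  · calc T (u l : H) * star (T (u l : H)) * (T (u l : H) * star (T (u l : H)))
        = T (u l : H) * (star (T (u l : H)) * T (u l : H)) * star (T (u l : H)) := by noncomm_ring
      _ = _ := by rw [star_T_u_mul T u hT hE, if_pos rfl, mul_one]
  · intro l' _ hl'
    calc T (u l : H) * star (T (u l : H)) * (T (u l' : H) * star (T (u l' : H)))
        = T (u l : H) * (star (T (u l : H)) * T (u l' : H)) * star (T (u l' : H)) := by noncomm_ring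
      _ = 0 := by rw [star_T_u_mul T u hT hE, if_neg hl'.symm]; simp
  · simp

omit hT hE in
lemma sum_inner_smul_u {x : H} (hx : x ∈ E) : ∑ l : Fin m, ⟪(u l : H), x⟫_ℂ • (u l : H) = x := by
  have h1 := u.sum_repr' ⟨x, hx⟩
  have h2 := congrArg (Subtype.val) h1
  simpa [Submodule.coe_sum, Submodule.coe_inner] using h2

lemma qEl_mul_T {x : H} (hx : x ∈ E) : qEl T u * T x = T x := by
  conv_rhs => rw [← sum_inner_smul_u u hx]
  rw [qEl, Finset.sum_mul, map_sum]
  refine Finset.sum_congr rfl fun l _ => ?_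
  rw [mul_assoc, hT _ (hE (u l).2) _ (hE hx), map_smul]
  simp

lemma aEl_mul_T (v : H →L[ℂ] H) {x : H} (hx : x ∈ E) : aEl T u v * T x = T (v x) := by
  conv_rhs => rw [← sum_inner_smul_u u hx]
  rw [aEl, Finset.sum_mul, map_sum, map_sum]
  refine Finset.sum_congr rfl fun l _ => ?_
  rw [mul_assoc, hT _ (hE (u l).2) _ (hE hx), map_smul, map_smul]
  simp

lemma star_aEl_mul_T (v : H →L[ℂ] H) (hv : ∀ x ∈ E, v x ∈ E₂) {y : H} (hy : y ∈ E₂)
    (hvy : (ContinuousLinearMap.adjoint v) y ∈ E) :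
    star (aEl T u v) * T y = T ((ContinuousLinearMap.adjoint v) y) := by
  conv_rhs => rw [← sum_inner_smul_u u hvy]
  rw [aEl, star_sum, Finset.sum_mul, map_sum]
  refine Finset.sum_congr rfl fun l _ => ?_
  rw [star_mul, star_star, mul_assoc, hT _ (hv _ (u l).2) _ hy, map_smul,
    ContinuousLinearMap.adjoint_inner_right]
  simp

lemma wEl_mul_T (v : H →L[ℂ] H) (z : B) {x : H} (hx : x ∈ E) :
    wEl T u v z * T x = T (v x) := by
  rw [wEl, add_mul, aEl_mul_T T u hT hE v hx, mul_assoc, sub_mul, one_mul,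
    qEl_mul_T T u hT hE hx]
  simp

lemma star_wEl_mul_T (v : H →L[ℂ] H) (hv : ∀ x ∈ E, v x ∈ E₂) (z : B)
    (hz : ∀ x, star (T x) * z = 0) {y : H} (hy : y ∈ E₂)
    (hvy : (ContinuousLinearMap.adjoint v) y ∈ E) :
    star (wEl T u v z) * T y = T ((ContinuousLinearMap.adjoint v) y) := by
  have hz' : star z * T y = 0 := by
    have := congrArg star (hz y)
    simpa using this
  rw [wEl, star_add, add_mul, star_aEl_mul_T T u hT hE v hv hy hvy, star_mul, mul_assoc, hz']
  simp

omit hT hE in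
lemma star_aEl_mul_z (v : H →L[ℂ] H) (z : B) (hz : ∀ x, star (T x) * z = 0) :
    star (aEl T u v) * z = 0 := by
  rw [aEl, star_sum, Finset.sum_mul]
  refine Finset.sum_eq_zero fun l _ => ?_
  rw [star_mul, star_star, mul_assoc, hz, mul_zero]

lemma star_wEl_mul_wEl (v v' : H →L[ℂ] H) (z z' : B)
    (hz : ∀ x, star (T x) * z = 0) (hz' : ∀ x, star (T x) * z' = 0) :
    star (wEl T u v z) * wEl T u v' z'
      = star (aEl T u v) * aEl T u v' + (1 - qEl T u) * (star z * z') * (1 - qEl T u) := by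
  have h1 := star_aEl_mul_z T u v z' hz'
  have h2 : star z * aEl T u v' = 0 := by
    have := congrArg star (star_aEl_mul_z T u v' z hz)
    simpa using this
  rw [wEl, wEl, star_add, star_mul, star_sub, star_one, star_qEl' T u]
  calc (star (aEl T u v) + (1 - qEl T u) * star z) * (aEl T u v' + z' * (1 - qEl T u))
      = star (aEl T u v) * aEl T u v' + (star (aEl T u v) * z') * (1 - qEl T u)
        + (1 - qEl T u) * (star z * aEl T u v')
        + (1 - qEl T u) * (star z * z') * (1 - qEl T u) := by noncomm_ring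
    _ = _ := by rw [h1, h2]; simp

lemma star_wEl_mul_wEl_self (v : H →L[ℂ] H) (hv : ∀ x ∈ E, v x ∈ E₂)
    (hiso : ∀ x y, ⟪v x, v y⟫_ℂ = ⟪x, y⟫_ℂ) (z : B)
    (hz : ∀ x, star (T x) * z = 0) (hzz : star z * z = 1) :
    star (wEl T u v z) * wEl T u v z = 1 := by
  rw [star_wEl_mul_wEl T u hT hE v v z z hz hz, star_aEl_mul_aEl_self T u hT hE v hv hiso, hzz]
  have := qEl_mul_qEl T u hT hE
  calc qEl T u + (1 - qEl T u) * 1 * (1 - qEl T u)
      = 1 - qEl T u + qEl T u * qEl T u := by noncomm_ring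
    _ = 1 := by rw [this]; abel

lemma star_wEl_mul_wEl_orth (v v' : H →L[ℂ] H) (hv : ∀ x ∈ E, v x ∈ E₂)
    (hv' : ∀ x ∈ E, v' x ∈ E₂) (horth : ∀ x y, ⟪v x, v' y⟫_ℂ = 0) (z z' : B)
    (hz : ∀ x, star (T x) * z = 0) (hz' : ∀ x, star (T x) * z' = 0) (hzz : star z * z' = 0) :
    star (wEl T u v z) * wEl T u v' z' = 0 := by
  rw [star_wEl_mul_wEl T u hT hE v v' z z' hz hz',
    star_aEl_mul_aEl_orth T u hT hE v v' hv hv' horth, hzz]
  simp

end abstract

end Vale.Agent.P083
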