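import Vale.Agent.P083.Dilate

/-!
# Completing a finite piece of a Cuntz family to a Cuntz family of `B`
-/

open scoped InnerProductSpace

set_option linter.unusedSectionVars false

namespace Vale.Agent.P083

variable {B : Type*} [CStarAlgebra B]

section algebra

variable {J : Type*} [Fintype J] [DecidableEq J]
  (a : J → B) (q c c' : B) (γ : J → B)

/-- the completed family -/
def fillEl (i : J) : B := a i + c' * γ i * star c

variable (haa : ∀ i j, star (a i) * a j = if i = j then q else 0)
  (hqs : star q = q) (hqq : q * q = q)
  (hc : star c * c = 1) (hcc : c * star c = 1 - q)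
  (hc' : star c' * c' = 1) (hcc' : c' * star c' = 1 - ∑ i, a i * star (a i))
  (hγ : ∀ i j, star (γ i) * γ j = if i = j then 1 else 0)
  (hγs : ∑ i, γ i * star (γ i) = 1)

include hqs hqq hcc in
lemma q_mul_c : q * c = 0 := by
  have h1 : (q * c) * star (q * c) = 0 := by
    rw [star_mul, hqs]
    calc q * c * (star c * q) = q * (c * star c) * q := by noncomm_ring
      _ = q * q - (q * q) * q := by rw [hcc]; noncomm_ring
      _ = 0 := by rw [hqq, hqq]; simp
  exact (CStarRing.mul_star_self_eq_zero_iff _).mp h1

include haa hqs hqq in
lemma a_mul_q (i : J) : a i * q = a i := by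
  have h1 : star (a i * (1 - q)) * (a i * (1 - q)) = 0 := by
    rw [star_mul, star_sub, star_one, hqs]
    calc (1 - q) * star (a i) * (a i * (1 - q)) = (1 - q) * (star (a i) * a i) * (1 - q) := by
          noncomm_ring
      _ = (q - q * q) - (q * q - (q * q) * q) := by rw [haa, if_pos rfl]; noncomm_ring
      _ = 0 := by rw [hqq, hqq]; simp
  have h2 := (CStarRing.star_mul_self_eq_zero_iff _).mp h1
  rw [mul_sub, mul_one, sub_eq_zero] at h2
  exact h2.symm

include haa hqs hqq in
lemma r_mul_a (i : J) : (∑ j, a j * star (a j)) * a i = a i := by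
  rw [Finset.sum_mul, Finset.sum_eq_single i]
  · rw [mul_assoc, haa, if_pos rfl, a_mul_q a q haa hqs hqq]
  · intro j _ hj
    rw [mul_assoc, haa, if_neg hj, mul_zero]
  · simp

include haa hqs hqq in
lemma r_mul_r : (∑ j, a j * star (a j)) * (∑ j, a j * star (a j)) = ∑ j, a j * star (a j) := by
  conv_lhs => rw [Finset.mul_sum]
  refine Finset.sum_congr rfl fun i _ => ?_
  rw [← mul_assoc, r_mul_a a q haa hqs hqq]

omit [DecidableEq J] in
lemma star_r : star (∑ j, a j * star (a j)) = ∑ j, a j * star (a j) := by
  simp [star_sum]

include haa hqs hqq hcc' in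
lemma r_mul_c' : (∑ j, a j * star (a j)) * c' = 0 :=
  q_mul_c (∑ j, a j * star (a j)) c' (star_r a) (r_mul_r a q haa hqs hqq) hcc'

include haa hqs hqq hcc' in
lemma star_a_mul_c' (i : J) : star (a i) * c' = 0 := by
  have h1 : star (a i) = star (a i) * (∑ j, a j * star (a j)) := by
    conv_lhs => rw [← r_mul_a a q haa hqs hqq i, star_mul, star_r]
  rw [h1, mul_assoc, r_mul_c' a q c' haa hqs hqq hcc', mul_zero]

include haa hqs hqq hcc in
lemma a_mul_c (i : J) : a i * c = 0 := by
  rw [← a_mul_q a q haa hqs hqq i, mul_assoc, q_mul_c q c hqs hqq hcc, mul_zero]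

include haa hqs hqq hc hcc hc' hcc' hγ in
lemma star_fillEl_mul_fillEl (i j : J) :
    star (fillEl a c c' γ i) * fillEl a c c' γ j = if i = j then 1 else 0 := by
  have h1 := star_a_mul_c' a q c' haa hqs hqq hcc' i
  have h2 : star c' * a j = 0 := by
    have := congrArg star (star_a_mul_c' a q c' haa hqs hqq hcc' j)
    simpa using this
  unfold fillEl
  rw [star_add, star_mul, star_mul, star_star]
  calc (star (a i) + c * (star (γ i) * star c')) * (a j + c' * γ j * star c)
      = star (a i) * a j + (star (a i) * c') * γ j * star c + c * star (γ i) * (star c' * a j)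
        + c * (star (γ i) * ((star c' * c') * γ j)) * star c := by noncomm_ring
    _ = (if i = j then q else 0) + c * (if i = j then 1 else 0) * star c := by
        rw [h1, h2, hc', one_mul, hγ, haa]; simp
    _ = if i = j then 1 else 0 := by
        split_ifs
        · rw [mul_one, hcc]; abel
        · simp

include haa hqs hqq hc hcc hc' hcc' hγs in
lemma sum_fillEl_mul_star : ∑ i, fillEl a c c' γ i * star (fillEl a c c' γ i) = 1 := by
  have key : ∀ i, fillEl a c c' γ i * star (fillEl a c c' γ i)
      = a i * star (a i) + c' * (γ i * star (γ i)) * star c' := by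
    intro i
    have h1 := a_mul_c a q c haa hqs hqq hcc i
    have h2 : star c * star (a i) = 0 := by
      have := congrArg star h1
      simpa using this
    unfold fillEl
    rw [star_add, star_mul, star_mul, star_star]
    calc (a i + c' * γ i * star c) * (star (a i) + c * (star (γ i) * star c'))
        = a i * star (a i) + (a i * c) * (star (γ i) * star c') + c' * γ i * (star c * star (a i))
          + c' * γ i * (star c * c) * star (γ i) * star c' := by noncomm_ring
      _ = _ := by rw [h1, h2, hc]; noncomm_ring
  simp only [key]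
  rw [Finset.sum_add_distrib, ← Finset.sum_mul, ← Finset.mul_sum, hγs, mul_one, hcc']
  abel

include hqs hqq hcc in
lemma fillEl_mul_of_q (i : J) {t : B} (ht : q * t = t) : fillEl a c c' γ i * t = a i * t := by
  have h1 : star c * t = 0 := by
    have h2 : star c * q = 0 := by
      have := congrArg star (q_mul_c q c hqs hqq hcc)
      simpa [hqs] using this
    rw [← ht, ← mul_assoc, h2, zero_mul]
  unfold fillEl
  rw [add_mul, mul_assoc, h1, mul_zero, add_zero]

include haa hqs hqq hcc' in
lemma star_fillEl_mul_of_r (i : J) {t : B} (ht : (∑ j, a j * star (a j)) * t = t) :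
    star (fillEl a c c' γ i) * t = star (a i) * t := by
  have h1 : star c' * t = 0 := by
    have h2 : star c' * (∑ j, a j * star (a j)) = 0 := by
      have := congrArg star (r_mul_c' a q c' haa hqs hqq hcc')
      simpa [star_sum] using this
    rw [← ht, ← mul_assoc, h2, zero_mul]
  unfold fillEl
  rw [star_add, add_mul, star_mul, star_mul, star_star]
  calc star (a i) * t + c * (star (γ i) * star c') * t
      = star (a i) * t + c * star (γ i) * (star c' * t) := by noncomm_ring
    _ = _ := by rw [h1]; simp

end algebra

end Vale.Agent.P083
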