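import Vale.Agent.P083.Cuntz

/-!
# Copies of finite dimensional Hilbert spaces inside a C*-algebra containing a Cuntz pair
-/

open scoped InnerProductSpace

namespace Vale.Agent.P083

variable {B : Type*} [CStarAlgebra B]
variable {H : Type*} [NormedAddCommGroup H] [InnerProductSpace ℂ H]

/-- The linear map `x ↦ ∑ₖ ⟪eₖ, x⟫ yₖ` from `H` to `B` attached to an orthonormal basis `e` of the
finite dimensional subspace `E₂`. -/
noncomputable def tauMap (s₁ s₂ : B) {E₂ : Submodule ℂ H} {N : ℕ}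
    (e : OrthonormalBasis (Fin N) ℂ E₂) : H →ₗ[ℂ] B where
  toFun x := ∑ k : Fin N, ⟪(e k : H), x⟫_ℂ • ySeq s₁ s₂ k
  map_add' x y := by
    simp only [inner_add_right, add_smul, Finset.sum_add_distrib]
  map_smul' c x := by
    simp only [inner_smul_right, RingHom.id_apply, Finset.smul_sum, smul_smul]

lemma tauMap_apply (s₁ s₂ : B) {E₂ : Submodule ℂ H} {N : ℕ}
    (e : OrthonormalBasis (Fin N) ℂ E₂) (x : H) :
    tauMap s₁ s₂ e x = ∑ k : Fin N, ⟪(e k : H), x⟫_ℂ • ySeq s₁ s₂ k := rfl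

section
variable {s₁ s₂ : B} (h : IsCuntzPair s₁ s₂) {E₂ : Submodule ℂ H} {N : ℕ}
  (e : OrthonormalBasis (Fin N) ℂ E₂)
include h

lemma star_tauMap_mul_tauMap {x y : H} (hx : x ∈ E₂) (hy : y ∈ E₂) :
    star (tauMap s₁ s₂ e x) * tauMap s₁ s₂ e y = ⟪x, y⟫_ℂ • (1 : B) := by
  have hP := OrthonormalBasis.sum_inner_mul_inner e ⟨x, hx⟩ ⟨y, hy⟩
  simp only [Submodule.coe_inner] at hP
  rw [← hP, tauMap_apply, tauMap_apply, star_sum, Finset.sum_mul, Finset.sum_smul]
  refine Finset.sum_congr rfl fun k _ => ?_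
  rw [Finset.mul_sum, Finset.sum_eq_single k]
  · rw [star_smul, smul_mul_smul_comm, h.star_ySeq_mul_self]
    congr 1
    rw [RCLike.star_def, inner_conj_symm]
  · intro j _ hjk
    rw [star_smul, smul_mul_smul_comm, h.star_ySeq_mul_ne, smul_zero]
    exact fun hh => hjk (Fin.ext hh).symm
  · simp

lemma norm_tauMap {x : H} (hx : x ∈ E₂) [Nontrivial B] : ‖tauMap s₁ s₂ e x‖ = ‖x‖ := by
  have h1 := star_tauMap_mul_tauMap h e hx hx
  have h2 : ‖star (tauMap s₁ s₂ e x) * tauMap s₁ s₂ e x‖ = ‖x‖ * ‖x‖ := by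
    rw [h1, norm_smul, norm_one, mul_one, inner_self_eq_norm_sq_to_K]
    simp [sq]
  rw [CStarRing.norm_star_mul_self] at h2
  exact (mul_self_inj (norm_nonneg _) (norm_nonneg _)).mp h2

lemma star_tauMap_mul_pow₂ (x : H) : star (tauMap s₁ s₂ e x) * s₂ ^ N = 0 := by
  rw [tauMap_apply, star_sum, Finset.sum_mul]
  refine Finset.sum_eq_zero fun k _ => ?_
  rw [star_smul, smul_mul_assoc, h.star_ySeq_mul_pow₂ k.2, smul_zero]

end

end Vale.Agent.P083
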