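import Vale.Agent.P083.Cuntz

/-!
# From a norm-separating family of unital star-homomorphisms into `B` to a single
asymptotically isometric sequence of unital star-homomorphisms
-/

open Filter Topology

namespace Vale.Agent.P083

variable {A : Type*} [CStarAlgebra A] {B : Type*} [CStarAlgebra B]

/-- the direct sum `a ↦ s₁ φ(a) s₁* + s₂ ψ(a) s₂*` of two unital star-homomorphisms -/
def dsum {s₁ s₂ : B} (h : IsCuntzPair s₁ s₂) (φ ψ : A →⋆ₐ[ℂ] B) : A →⋆ₐ[ℂ] B where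
  toFun a := s₁ * φ a * star s₁ + s₂ * ψ a * star s₂
  map_one' := by simp [h.sum_eq]
  map_mul' a b := by
    rw [map_mul, map_mul]
    calc s₁ * (φ a * φ b) * star s₁ + s₂ * (ψ a * ψ b) * star s₂
        = s₁ * φ a * 1 * φ b * star s₁ + s₁ * φ a * 0 * ψ b * star s₂
          + s₂ * ψ a * 0 * φ b * star s₁ + s₂ * ψ a * 1 * ψ b * star s₂ := by noncomm_ring
      _ = s₁ * φ a * (star s₁ * s₁) * φ b * star s₁ + s₁ * φ a * (star s₁ * s₂) * ψ b * star s₂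
          + s₂ * ψ a * (star s₂ * s₁) * φ b * star s₁
          + s₂ * ψ a * (star s₂ * s₂) * ψ b * star s₂ := by
          rw [h.iso₁, h.iso₂, h.star₁_mul₂, h.star₂_mul₁]
      _ = _ := by noncomm_ring
  map_zero' := by simp
  map_add' a b := by rw [map_add, map_add]; noncomm_ring
  commutes' r := by
    rw [AlgHomClass.commutes, AlgHomClass.commutes, Algebra.algebraMap_eq_smul_one]
    simp only [mul_smul_comm, mul_one, smul_mul_assoc]
    rw [← smul_add, h.sum_eq]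
  map_star' a := by
    simp only [map_star, star_add, star_mul, star_star, mul_assoc]

lemma dsum_apply {s₁ s₂ : B} (h : IsCuntzPair s₁ s₂) (φ ψ : A →⋆ₐ[ℂ] B) (a : A) :
    dsum h φ ψ a = s₁ * φ a * star s₁ + s₂ * ψ a * star s₂ := rfl

lemma norm_le_one_of_isometry {s : B} (hs : star s * s = 1) : ‖s‖ ≤ 1 := by
  have h1 : ‖s‖ * ‖s‖ = ‖(1 : B)‖ := by rw [← CStarRing.norm_star_mul_self, hs]
  have h2 : ‖(1 : B)‖ ≤ 1 := by
    rcases subsingleton_or_nontrivial B with hB | hB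
    · simp [Subsingleton.elim (1 : B) 0]
    · simp
  nlinarith [norm_nonneg s]

lemma norm_left_le_dsum {s₁ s₂ : B} (h : IsCuntzPair s₁ s₂) (φ ψ : A →⋆ₐ[ℂ] B) (a : A) :
    ‖φ a‖ ≤ ‖dsum h φ ψ a‖ := by
  have e : φ a = star s₁ * dsum h φ ψ a * s₁ := by
    rw [dsum_apply]
    calc φ a = (star s₁ * s₁) * φ a * (star s₁ * s₁) + (star s₁ * s₂) * ψ a * (star s₂ * s₁) := by
          rw [h.iso₁, h.star₁_mul₂]; simp
      _ = _ := by noncomm_ring
  have hs := norm_le_one_of_isometry h.iso₁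
  calc ‖φ a‖ = ‖star s₁ * dsum h φ ψ a * s₁‖ := by rw [← e]
    _ ≤ ‖star s₁‖ * ‖dsum h φ ψ a‖ * ‖s₁‖ := by
        refine (norm_mul_le _ _).trans ?_
        gcongr
        exact norm_mul_le _ _
    _ ≤ 1 * ‖dsum h φ ψ a‖ * 1 := by
        rw [norm_star]
        gcongr
    _ = _ := by ring

lemma norm_right_le_dsum {s₁ s₂ : B} (h : IsCuntzPair s₁ s₂) (φ ψ : A →⋆ₐ[ℂ] B) (a : A) :
    ‖ψ a‖ ≤ ‖dsum h φ ψ a‖ := by
  have e : ψ a = star s₂ * dsum h φ ψ a * s₂ := by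
    rw [dsum_apply]
    calc ψ a = (star s₂ * s₁) * φ a * (star s₁ * s₂) + (star s₂ * s₂) * ψ a * (star s₂ * s₂) := by
          rw [h.iso₂, h.star₂_mul₁]; simp
      _ = _ := by noncomm_ring
  have hs := norm_le_one_of_isometry h.iso₂
  calc ‖ψ a‖ = ‖star s₂ * dsum h φ ψ a * s₂‖ := by rw [← e]
    _ ≤ ‖star s₂‖ * ‖dsum h φ ψ a‖ * ‖s₂‖ := by
        refine (norm_mul_le _ _).trans ?_
        gcongr
        exact norm_mul_le _ _
    _ ≤ 1 * ‖dsum h φ ψ a‖ * 1 := by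
        rw [norm_star]
        gcongr
    _ = _ := by ring

/-- iterated direct sums -/
def dsumSeq {s₁ s₂ : B} (h : IsCuntzPair s₁ s₂) (θ : ℕ → (A →⋆ₐ[ℂ] B)) : ℕ → (A →⋆ₐ[ℂ] B)
  | 0 => θ 0
  | n + 1 => dsum h (dsumSeq h θ n) (θ (n + 1))

lemma norm_le_dsumSeq {s₁ s₂ : B} (h : IsCuntzPair s₁ s₂) (θ : ℕ → (A →⋆ₐ[ℂ] B)) (a : A)
    {k n : ℕ} (hkn : k ≤ n) : ‖θ k a‖ ≤ ‖dsumSeq h θ n a‖ := by
  induction n with
  | zero =>
    obtain rfl : k = 0 := by omega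
    exact le_rfl
  | succ n ih =>
    rcases Nat.lt_or_ge k (n + 1) with hlt | hge
    · exact (ih (by omega)).trans (norm_left_le_dsum h _ _ a)
    · obtain rfl : k = n + 1 := by omega
      exact norm_right_le_dsum h _ _ a

/-- General principle: if the unital star-homomorphisms `A → B` approximately attain the norm of
every element of the separable algebra `A`, and `B` contains a Cuntz pair, then there is a sequence
of unital star-homomorphisms `ψ n : A → B` with `‖ψ n a‖ → ‖a‖` for every `a`. -/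
theorem exists_seq_of_residual [TopologicalSpace.SeparableSpace A] {s₁ s₂ : B}
    (h : IsCuntzPair s₁ s₂)
    (hres : ∀ a : A, ∀ ε : ℝ, 0 < ε → ∃ φ : A →⋆ₐ[ℂ] B, ‖a‖ - ε ≤ ‖φ a‖) :
    ∃ ψ : ℕ → (A →⋆ₐ[ℂ] B), ∀ a : A, Tendsto (fun n => ‖ψ n a‖) atTop (𝓝 ‖a‖) := by
  obtain ⟨d, hd⟩ := TopologicalSpace.exists_dense_seq A
  choose Φ hΦ using fun (p : ℕ × ℕ) => hres (d p.1) (1 / ((p.2 : ℝ) + 1)) (by positivity)
  let θ : ℕ → (A →⋆ₐ[ℂ] B) := fun j => Φ (Nat.unpair j)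
  refine ⟨dsumSeq h θ, fun a => ?_⟩
  rw [Metric.tendsto_atTop]
  intro ε hε
  obtain ⟨k, hk⟩ := hd.exists_dist_lt a (show 0 < ε / 3 by positivity)
  obtain ⟨m, hm⟩ := exists_nat_one_div_lt (show 0 < ε / 3 by positivity)
  refine ⟨Nat.pair k m, fun n hn => ?_⟩
  have hup : ‖dsumSeq h θ n a‖ ≤ ‖a‖ := NonUnitalStarAlgHom.norm_apply_le _ a
  have h1 : ‖θ (Nat.pair k m) (d k)‖ ≤ ‖dsumSeq h θ n (d k)‖ := norm_le_dsumSeq h θ (d k) hn
  have h2 : ‖d k‖ - 1 / ((m : ℝ) + 1) ≤ ‖θ (Nat.pair k m) (d k)‖ := by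
    have := hΦ (k, m)
    simpa [θ, Nat.unpair_pair] using this
  have h3 : ‖dsumSeq h θ n (d k)‖ ≤ ‖dsumSeq h θ n a‖ + ‖a - d k‖ := by
    have e : dsumSeq h θ n (d k) = dsumSeq h θ n a - dsumSeq h θ n (a - d k) := by
      rw [map_sub]; abel
    rw [e]
    refine (norm_sub_le _ _).trans ?_
    gcongr
    exact NonUnitalStarAlgHom.norm_apply_le _ _
  have h4 : ‖a‖ ≤ ‖d k‖ + ‖a - d k‖ := by
    have := norm_add_le (d k) (a - d k)
    simpa using this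
  rw [dist_eq_norm] at hk
  rw [Real.dist_eq, abs_lt]
  constructor <;> linarith

end Vale.Agent.P083
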