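import Vale.Agent.P083.Residual
import Vale.Agent.P083.Sequence

/-!
# Universal C*-algebras generated by isometries embed unitally into the ultrapower of `O₂`
-/

open Filter Topology

namespace Vale.Agent.P083

universe u

lemma countable_submonoid_closure {M : Type*} [Monoid M] {s : Set M} (hs : s.Countable) :
    (Submonoid.closure s : Set M).Countable := by
  haveI : Countable s := hs.to_subtype
  rw [Submonoid.closure_eq_mrange]
  haveI : Countable (FreeMonoid s) := inferInstanceAs (Countable (List s))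
  exact Set.countable_range _

lemma separableSpace_of_gen {A : Type*} [CStarAlgebra A] {s : Set A} (hs : s.Countable)
    (hgen : (StarAlgebra.adjoin ℂ s).topologicalClosure = ⊤) :
    TopologicalSpace.SeparableSpace A := by
  rw [← TopologicalSpace.isSeparable_univ_iff]
  have h1 : ((Submonoid.closure (s ∪ star s) : Submonoid A) : Set A).Countable :=
    countable_submonoid_closure (hs.union (by
      have : star s = star '' s := by
        ext x; simp [Set.mem_star]
      rw [this]; exact hs.image _))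
  have h2 := (h1.isSeparable.span (R := ℂ)).closure
  have h3 : ((StarAlgebra.adjoin ℂ s : StarSubalgebra ℂ A) : Set A)
      = (Submodule.span ℂ ((Submonoid.closure (s ∪ star s) : Submonoid A) : Set A) : Set A) := by
    have := StarAlgebra.adjoin_eq_span (R := ℂ) s
    exact congrArg (fun S : Submodule ℂ A => (S : Set A)) this
  have h4 : closure ((StarAlgebra.adjoin ℂ s : StarSubalgebra ℂ A) : Set A) = Set.univ := by
    have := congrArg (fun S : StarSubalgebra ℂ A => (S : Set A)) hgen
    simpa [StarSubalgebra.topologicalClosure_coe] using this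
  rw [← h4, h3]
  exact h2

/-- A sequence of unital star-homomorphisms that is asymptotically isometric gives a unital
embedding into the norm ultrapower along every free ultrafilter. -/
lemma embeds_of_seq {A B : Type*} [CStarAlgebra A] [CStarAlgebra B]
    (ψ : ℕ → (A →⋆ₐ[ℂ] B)) (hψ : ∀ a : A, Tendsto (fun n => ‖ψ n a‖) atTop (𝓝 ‖a‖))
    (ω : Ultrafilter ℕ) (hω : (ω : Filter ℕ) ≤ cofinite) :
    UnitallyEmbedsInUltrapower A B ω := by
  refine ⟨fun a n => ψ n a, ?_, ?_, ?_, ?_, ?_, ?_, ?_⟩
  · exact fun a => ⟨‖a‖, fun n => NonUnitalStarAlgHom.norm_apply_le _ a⟩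
  · intro a b; simp [InUltraIdeal]
  · intro c a; simp [InUltraIdeal]
  · intro a b; simp [InUltraIdeal]
  · intro a; simp [InUltraIdeal, map_star]
  · simp [InUltraIdeal]
  · intro a ha
    have h1 : Tendsto (fun n => ‖ψ n a‖) (ω : Filter ℕ) (𝓝 ‖a‖) :=
      (hψ a).mono_left (by rw [← Nat.cofinite_eq_atTop]; exact hω)
    have h2 := tendsto_nhds_unique h1 ha
    exact norm_eq_zero.mp h2

theorem universal_isometry_algebra_embeds {ι : Type*} [Fintype ι] (R : ι → ι → Prop)
    (hR : ∀ i, ¬ R i i) (A : Type u) [CStarAlgebra A] (v : ι → A)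
    (hA : IsUniversalIsometryAlgebra R A v) (B : Type u) [CStarAlgebra B] (hB : IsCuntzO2 B)
    (ω : Ultrafilter ℕ) (hω : (ω : Filter ℕ) ≤ cofinite) :
    UnitallyEmbedsInUltrapower A B ω := by
  classical
  obtain ⟨hBn, s₁, s₂, h, -⟩ := hB
  have huniv : ∀ w : ι → B, (∀ i, star (w i) * w i = 1) →
      (∀ i j, R i j → star (w i) * w j = 0) → ∃ φ : A →⋆ₐ[ℂ] B, ∀ i, φ (v i) = w i :=
    fun w h1 h2 => hA.univ B w ⟨h1, h2⟩
  -- `A` is nontrivial
  haveI : Nontrivial A := by
    obtain ⟨φ, -⟩ := huniv (fun i => ySeq s₁ s₂ (Fintype.equivFin ι i : ℕ))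
      (fun i => h.star_ySeq_mul_self _)
      (fun i j hij => h.star_ySeq_mul_ne (fun e => hR i (by
        have : i = j := (Fintype.equivFin ι).injective (Fin.ext e)
        rw [← this] at hij; exact hij)))
    by_contra hcon
    rw [not_nontrivial_iff_subsingleton] at hcon
    have h1 : (1 : B) = 0 := by
      rw [← map_one φ, Subsingleton.elim (1 : A) 0, map_zero]
    exact one_ne_zero h1
  haveI : TopologicalSpace.SeparableSpace A :=
    separableSpace_of_gen (Set.countable_range v) hA.gen
  have hdense : Dense ((StarAlgebra.adjoin ℂ (Set.range v) : StarSubalgebra ℂ A) : Set A) := by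
    have := congrArg (fun S : StarSubalgebra ℂ A => (S : Set A)) hA.gen
    rw [dense_iff_closure_eq]
    simpa [StarSubalgebra.topologicalClosure_coe] using this
  have hres : ∀ a : A, ∀ ε : ℝ, 0 < ε → ∃ φ : A →⋆ₐ[ℂ] B, ‖a‖ - ε ≤ ‖φ a‖ := by
    intro a ε hε
    obtain ⟨a₀, ha₀, hd⟩ := hdense.exists_dist_lt a (show 0 < ε / 2 by positivity)
    obtain ⟨φ, hφ⟩ := exists_hom_norm_ge h R hR v hA.rel.1 hA.rel.2 huniv ha₀
    refine ⟨φ, ?_⟩
    rw [dist_eq_norm] at hd
    have h1 : ‖φ a₀‖ ≤ ‖φ a‖ + ‖a - a₀‖ := by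
      have e : φ a₀ = φ a - φ (a - a₀) := by rw [map_sub]; abel
      rw [e]
      refine (norm_sub_le _ _).trans ?_
      gcongr
      exact NonUnitalStarAlgHom.norm_apply_le _ _
    have h2 : ‖a‖ ≤ ‖a₀‖ + ‖a - a₀‖ := by
      have := norm_add_le a₀ (a - a₀)
      simpa using this
    linarith
  obtain ⟨ψ, hψ⟩ := exists_seq_of_residual h hres
  exact embeds_of_seq ψ hψ ω hω

end Vale.Agent.P083
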