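import Vale.Agent.P083.Complement

/-!
# Realization lemma for families of Cuntz type
-/

open scoped InnerProductSpace

set_option linter.unusedSectionVars false
set_option linter.style.haveILetI false

namespace Vale.Agent.P083

variable {B : Type*} [CStarAlgebra B]
variable {H : Type*} [NormedAddCommGroup H] [InnerProductSpace ℂ H] [CompleteSpace H]

section
variable (T : H →ₗ[ℂ] B) {E E₂ : Submodule ℂ H} {m : ℕ} (u : OrthonormalBasis (Fin m) ℂ E)
  (hT : ∀ x ∈ E₂, ∀ y ∈ E₂, star (T x) * T y = ⟪x, y⟫_ℂ • (1 : B)) (hE : E ≤ E₂)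
include hT hE

lemma aEl_mul_star_aEl (v : H →L[ℂ] H) :
    aEl T u v * star (aEl T u v) = ∑ l, T (v (u l : H)) * star (T (v (u l : H))) := by
  simp only [aEl, star_sum, star_mul, star_star]
  rw [Finset.sum_mul]
  refine Finset.sum_congr rfl fun l _ => ?_
  rw [Finset.mul_sum, Finset.sum_eq_single l]
  · calc T (v (u l : H)) * star (T (u l : H)) * (T (u l : H) * star (T (v (u l : H))))
        = T (v (u l : H)) * (star (T (u l : H)) * T (u l : H)) * star (T (v (u l : H))) := by
          noncomm_ring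
      _ = _ := by rw [star_T_u_mul T u hT hE, if_pos rfl, mul_one]
  · intro l' _ hl'
    calc T (v (u l : H)) * star (T (u l : H)) * (T (u l' : H) * star (T (v (u l' : H))))
        = T (v (u l : H)) * (star (T (u l : H)) * T (u l' : H)) * star (T (v (u l' : H))) := by
          noncomm_ring
      _ = 0 := by rw [star_T_u_mul T u hT hE, if_neg hl'.symm]; simp
  · simp

end

variable {ι : Type*} {G : Type*}

lemma exists_realization₂ [Nontrivial B] [Fintype ι] [DecidableEq ι] [DecidableEq G]
    {s₁ s₂ : B} (h : IsCuntzPair s₁ s₂) (grp : ι → G) (full : G → Prop)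
    (v : ι → H →L[ℂ] H) (hiso : ∀ i x y, ⟪v i x, v i y⟫_ℂ = ⟪x, y⟫_ℂ)
    (horth : ∀ i j, i ≠ j → grp i = grp j → ∀ x y, ⟪v i x, v j y⟫_ℂ = 0)
    (hfull : ∀ i, full (grp i) → ∀ x,
      ∑ j ∈ Finset.univ.filter (fun j => grp j = grp i),
        v j (ContinuousLinearMap.adjoint (v j) x) = x)
    (F : Submodule ℂ H) [FiniteDimensional ℂ F] :
    ∃ (W : ι → B) (T : H →ₗ[ℂ] B),
      (∀ i, star (W i) * W i = 1) ∧
      (∀ i j, i ≠ j → grp i = grp j → star (W i) * W j = 0) ∧
      (∀ i, full (grp i) →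
        ∑ j ∈ Finset.univ.filter (fun j => grp j = grp i), W j * star (W j) = 1) ∧
      (∀ x ∈ F, ‖T x‖ = ‖x‖) ∧
      (∀ i, ∀ x ∈ F, W i * T x = T (v i x) ∧
        star (W i) * T x = T (ContinuousLinearMap.adjoint (v i) x)) := by
  classical
  set E : Submodule ℂ H :=
    F ⊔ ⨆ i, F.map (ContinuousLinearMap.adjoint (v i)).toLinearMap with hEdef
  set E₂ : Submodule ℂ H := E ⊔ ⨆ i, E.map (v i).toLinearMap with hE₂def
  haveI : FiniteDimensional ℂ E := by rw [hEdef]; infer_instance
  haveI : FiniteDimensional ℂ E₂ := by rw [hE₂def]; infer_instance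
  have hFE : F ≤ E := le_sup_left
  have hEE₂ : E ≤ E₂ := le_sup_left
  have hadj : ∀ i, ∀ x ∈ F, ContinuousLinearMap.adjoint (v i) x ∈ E := by
    intro i x hx
    refine (le_sup_right : _ ≤ E) ?_
    refine (le_iSup (fun i => F.map (ContinuousLinearMap.adjoint (v i)).toLinearMap) i) ?_
    exact Submodule.mem_map_of_mem hx
  have hvE : ∀ i, ∀ x ∈ E, v i x ∈ E₂ := by
    intro i x hx
    refine (le_sup_right : _ ≤ E₂) ?_
    refine (le_iSup (fun i => E.map (v i).toLinearMap) i) ?_
    exact Submodule.mem_map_of_mem hx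
  set u := stdOrthonormalBasis ℂ E
  set m := Module.finrank ℂ E
  set e := stdOrthonormalBasis ℂ E₂
  set N := Module.finrank ℂ E₂
  set T := tauMap s₁ s₂ e with hTdef
  have hT : ∀ x ∈ E₂, ∀ y ∈ E₂, star (T x) * T y = ⟪x, y⟫_ℂ • (1 : B) :=
    fun x hx y hy => star_tauMap_mul_tauMap h e hx hy
  let enc : ι → ℕ := fun i => (Fintype.equivFin ι i : ℕ)
  have henc : Function.Injective enc := fun i j hij =>
    (Fintype.equivFin ι).injective (Fin.ext hij)
  let z : ι → B := fun i => s₂ ^ N * ySeq s₁ s₂ (enc i)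
  have hTz : ∀ i x, star (T x) * z i = 0 := by
    intro i x
    show star (T x) * (s₂ ^ N * ySeq s₁ s₂ (enc i)) = 0
    rw [← mul_assoc, star_tauMap_mul_pow₂ h e x, zero_mul]
  have hzz : ∀ i j, star (z i) * z j = if i = j then 1 else 0 := by
    intro i j
    show star (s₂ ^ N * ySeq s₁ s₂ (enc i)) * (s₂ ^ N * ySeq s₁ s₂ (enc j)) = _
    rw [star_mul]
    calc star (ySeq s₁ s₂ (enc i)) * star (s₂ ^ N) * (s₂ ^ N * ySeq s₁ s₂ (enc j))
        = star (ySeq s₁ s₂ (enc i)) * (star (s₂ ^ N) * s₂ ^ N) * ySeq s₁ s₂ (enc j) := by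
          noncomm_ring
      _ = _ := by
          rw [h.star_pow₂_mul_pow₂, mul_one, h.star_ySeq_mul]
          simp [henc.eq_iff]
  have huorth : Orthonormal ℂ (fun l => (u l : H)) := by
    rw [orthonormal_iff_ite]
    intro l l'
    rw [← Submodule.coe_inner, orthonormal_iff_ite.mp u.orthonormal l l']
  -- the isometry onto the complement of `q`
  obtain ⟨c, hc, hcc⟩ := exists_complement_isometry h e (fun l => (u l : H)) huorth
    (fun l => hEE₂ (u l).2)
  -- construction group by group
  have hgroup : ∀ g : G, ∃ Wg : {j // grp j = g} → B,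
      (∀ j k, star (Wg j) * Wg k = if j = k then 1 else 0) ∧
      (full g → Nonempty {j // grp j = g} → ∑ j, Wg j * star (Wg j) = 1) ∧
      (∀ j, ∀ x ∈ F, Wg j * T x = T (v j.1 x) ∧
        star (Wg j) * T x = T (ContinuousLinearMap.adjoint (v j.1) x)) := by
    intro g
    by_cases hg : full g ∧ Nonempty {j // grp j = g}
    · obtain ⟨hgf, hgn⟩ := hg
      set a : {j // grp j = g} → B := fun j => aEl T u (v j.1) with ha
      set q := qEl T u with hq
      have haa : ∀ j k, star (a j) * a k = if j = k then q else 0 := by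
        intro j k
        by_cases hjk : j = k
        · subst hjk
          rw [if_pos rfl]
          exact star_aEl_mul_aEl_self T u hT hEE₂ (v j.1) (hvE j.1) (hiso j.1)
        · rw [if_neg hjk]
          exact star_aEl_mul_aEl_orth T u hT hEE₂ (v j.1) (v k.1) (hvE j.1) (hvE k.1)
            (horth j.1 k.1 (fun e => hjk (Subtype.ext e)) (j.2.trans k.2.symm))
      have hqs : star q = q := star_qEl' T u
      have hqq : q * q = q := qEl_mul_qEl T u hT hEE₂
      have hxorth : Orthonormal ℂ
          (fun jl : {j // grp j = g} × Fin m => v jl.1.1 (u jl.2 : H)) := by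
        rw [orthonormal_iff_ite]
        rintro ⟨j, l⟩ ⟨k, l'⟩
        by_cases hjk : j = k
        · subst hjk
          simp only [hiso]
          rw [← Submodule.coe_inner, orthonormal_iff_ite.mp u.orthonormal l l']
          by_cases hl : l = l' <;> simp [hl]
        · rw [horth j.1 k.1 (fun e => hjk (Subtype.ext e)) (j.2.trans k.2.symm), if_neg]
          intro e; exact hjk (congrArg Prod.fst e)
      obtain ⟨c', hc', hcc'⟩ := exists_complement_isometry h e _ hxorth
        (fun jl => hvE jl.1.1 _ (u jl.2).2)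
      have hr : ∑ jl : {j // grp j = g} × Fin m,
          T (v jl.1.1 (u jl.2 : H)) * star (T (v jl.1.1 (u jl.2 : H)))
          = ∑ j, a j * star (a j) := by
        rw [Fintype.sum_prod_type]
        refine Finset.sum_congr rfl fun j _ => ?_
        exact (aEl_mul_star_aEl T u hT hEE₂ (v j.1)).symm
      rw [hr] at hcc'
      obtain ⟨γ, hγ, hγs⟩ := exists_cuntz_family h {j // grp j = g}
      refine ⟨fillEl a c c' γ, ?_, ?_, ?_⟩
      · exact star_fillEl_mul_fillEl a q c c' γ haa hqs hqq hc hcc hc' hcc' hγ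
      · intro _ _
        exact sum_fillEl_mul_star a q c c' γ haa hqs hqq hc hcc hc' hcc' hγs
      · intro j x hx
        constructor
        · rw [fillEl_mul_of_q a q c c' γ hqs hqq hcc j (qEl_mul_T T u hT hEE₂ (hFE hx))]
          exact aEl_mul_T T u hT hEE₂ (v j.1) (hFE hx)
        · have hrT : (∑ k, a k * star (a k)) * T x = T x := by
            rw [Finset.sum_mul]
            have h1 : ∀ k : {j // grp j = g}, a k * star (a k) * T x
                = T (v k.1 (ContinuousLinearMap.adjoint (v k.1) x)) := by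
              intro k
              rw [mul_assoc, star_aEl_mul_T T u hT hEE₂ (v k.1) (hvE k.1) (hEE₂ (hFE hx))
                (hadj k.1 x hx), aEl_mul_T T u hT hEE₂ (v k.1) (hadj k.1 x hx)]
            simp only [h1]
            rw [← map_sum]
            congr 1
            have h2 := hfull j.1 (by rw [j.2]; exact hgf) x
            rw [j.2] at h2
            refine Eq.trans ?_ h2
            exact (Finset.sum_subtype (p := fun k => grp k = g)
              (Finset.univ.filter (fun k => grp k = g)) (fun k => by simp)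
              (fun k => v k (ContinuousLinearMap.adjoint (v k) x))).symm
          rw [star_fillEl_mul_of_r a q c c' γ haa hqs hqq hcc' j hrT]
          exact star_aEl_mul_T T u hT hEE₂ (v j.1) (hvE j.1) (hEE₂ (hFE hx)) (hadj j.1 x hx)
    · refine ⟨fun j => wEl T u (v j.1) (z j.1), ?_, ?_, ?_⟩
      · intro j k
        by_cases hjk : j = k
        · subst hjk
          rw [if_pos rfl]
          exact star_wEl_mul_wEl_self T u hT hEE₂ (v j.1) (hvE j.1) (hiso j.1) (z j.1) (hTz j.1)
            (by rw [hzz, if_pos rfl])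
        · rw [if_neg hjk]
          have hne : j.1 ≠ k.1 := fun e => hjk (Subtype.ext e)
          exact star_wEl_mul_wEl_orth T u hT hEE₂ (v j.1) (v k.1) (hvE j.1) (hvE k.1)
            (horth j.1 k.1 hne (j.2.trans k.2.symm)) (z j.1) (z k.1) (hTz j.1) (hTz k.1)
            (by rw [hzz, if_neg hne])
      · intro h1 h2
        exact absurd ⟨h1, h2⟩ hg
      · intro j x hx
        exact ⟨wEl_mul_T T u hT hEE₂ (v j.1) (z j.1) (hFE hx),
          star_wEl_mul_T T u hT hEE₂ (v j.1) (hvE j.1) (z j.1) (hTz j.1) (hEE₂ (hFE hx))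
            (hadj j.1 x hx)⟩
  choose Wg hW1 hW2 hW3 using hgroup
  have hWeq : ∀ (g : G) (j : ι) (hj : grp j = g), Wg (grp j) ⟨j, rfl⟩ = Wg g ⟨j, hj⟩ := by
    intro g j hj
    subst hj
    rfl
  refine ⟨fun i => Wg (grp i) ⟨i, rfl⟩, T, ?_, ?_, ?_, ?_, ?_⟩
  · intro i
    rw [hW1, if_pos rfl]
  · intro i j hij hg
    show star (Wg (grp i) ⟨i, rfl⟩) * Wg (grp j) ⟨j, rfl⟩ = 0
    rw [hWeq (grp i) j hg.symm, hW1, if_neg]
    intro e
    exact hij (congrArg Subtype.val e)
  · intro i hi
    have h1 := hW2 (grp i) hi ⟨⟨i, rfl⟩⟩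
    rw [← h1]
    rw [Finset.sum_subtype (p := fun k => grp k = grp i)
      (Finset.univ.filter (fun k => grp k = grp i)) (fun k => by simp)
      (fun k => Wg (grp k) ⟨k, rfl⟩ * star (Wg (grp k) ⟨k, rfl⟩))]
    refine Finset.sum_congr rfl fun k _ => ?_
    rw [hWeq (grp i) k.1 k.2]
  · intro x hx
    exact norm_tauMap h e (hEE₂ (hFE hx))
  · intro i x hx
    exact hW3 (grp i) ⟨i, rfl⟩ x hx

end Vale.Agent.P083
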