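import Vale.Agent.P083.Main
import Vale.Agent.P083.Realize2
import Vale.Agent.P083.Defs2

/-!
# Free products of Cuntz algebras embed unitally into the ultrapower of `O₂`
-/

open Filter Topology
open scoped InnerProductSpace ComplexOrder

set_option linter.unusedSectionVars false
set_option linter.style.haveILetI false

namespace Vale.Agent.P083

universe u

/-- General form of the key lemma. -/
lemma exists_hom_norm_ge_of_realization {A : Type u} [CStarAlgebra A] {B : Type*} [CStarAlgebra B]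
    {ι : Type*} [Nontrivial A] (v : ι → A)
    (hreal : ∀ (H : Type u) [NormedAddCommGroup H] [InnerProductSpace ℂ H] [CompleteSpace H]
      (π : A →⋆ₐ[ℂ] (H →L[ℂ] H)) (F : Submodule ℂ H) [FiniteDimensional ℂ F],
      ∃ (φ : A →⋆ₐ[ℂ] B) (T : H →ₗ[ℂ] B), (∀ x ∈ F, ‖T x‖ = ‖x‖) ∧ Intertwines π v F φ T)
    {a₀ : A} (ha₀ : a₀ ∈ StarAlgebra.adjoin ℂ (Set.range v)) :
    ∃ φ : A →⋆ₐ[ℂ] B, ‖a₀‖ ≤ ‖φ a₀‖ := by
  letI := CStarAlgebra.spectralOrder A
  letI := CStarAlgebra.spectralOrderedRing A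
  obtain ⟨f, hf1, hfa⟩ := exists_norming_state a₀
  set π := f.gnsStarAlgHom with hπ
  set ξ := gnsVec f with hξ
  have hξnorm : ‖ξ‖ = 1 := by
    have h1 := norm_sq_coe_toPreGNS f 1
    rw [star_one, one_mul, hf1] at h1
    have h2 : ‖ξ‖ ^ 2 = 1 := by exact_mod_cast h1
    have h3 : ‖ξ‖ ^ 2 = 1 ^ 2 := by rw [h2]; norm_num
    exact (sq_eq_sq₀ (norm_nonneg _) zero_le_one).mp h3
  have hanorm : ‖π a₀ ξ‖ = ‖a₀‖ := by
    have h1 := norm_sq_coe_toPreGNS f a₀
    rw [hfa, ← gns_apply_vec] at h1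
    have h2 : ‖π a₀ ξ‖ ^ 2 = ‖a₀‖ ^ 2 := by exact_mod_cast h1
    exact (sq_eq_sq₀ (norm_nonneg _) (norm_nonneg _)).mp h2
  obtain ⟨F, hF, htr⟩ := transfers_of_mem_adjoin (B := B) π v ha₀ (Submodule.span ℂ {ξ}) inferInstance
  set F' : Submodule ℂ f.GNS := F ⊔ Submodule.span ℂ {ξ, π a₀ ξ} with hF'
  haveI : FiniteDimensional ℂ F' := by
    rw [hF']
    haveI : FiniteDimensional ℂ (Submodule.span ℂ ({ξ, π a₀ ξ} : Set f.GNS)) :=
      FiniteDimensional.span_of_finite ℂ (by simp)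
    infer_instance
  obtain ⟨φ, T, hTn, hI'⟩ := hreal f.GNS π F'
  refine ⟨φ, ?_⟩
  have hI : Intertwines π v F φ T := hI'.mono le_sup_left
  have h1 := (htr φ T hI ξ (Submodule.mem_span_singleton_self ξ)).1
  have hξF : ξ ∈ F' := (le_sup_right : _ ≤ F') (Submodule.subset_span (by simp))
  have haF : π a₀ ξ ∈ F' := (le_sup_right : _ ≤ F') (Submodule.subset_span (by simp))
  calc ‖a₀‖ = ‖T (π a₀ ξ)‖ := by rw [hTn _ haF, hanorm]
    _ = ‖φ a₀ * T ξ‖ := by rw [h1]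
    _ ≤ ‖φ a₀‖ * ‖T ξ‖ := norm_mul_le _ _
    _ = ‖φ a₀‖ := by rw [hTn _ hξF, hξnorm, mul_one]

/-- From the key lemma to the embedding. -/
lemma embeds_of_norm_ge {A B : Type*} [CStarAlgebra A] [CStarAlgebra B] {ι : Type*} [Countable ι]
    (v : ι → A) (hgen : (StarAlgebra.adjoin ℂ (Set.range v)).topologicalClosure = ⊤)
    {s₁ s₂ : B} (h : IsCuntzPair s₁ s₂)
    (hkey : ∀ a₀ ∈ StarAlgebra.adjoin ℂ (Set.range v), ∃ φ : A →⋆ₐ[ℂ] B, ‖a₀‖ ≤ ‖φ a₀‖)
    (ω : Ultrafilter ℕ) (hω : (ω : Filter ℕ) ≤ cofinite) :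
    UnitallyEmbedsInUltrapower A B ω := by
  haveI : TopologicalSpace.SeparableSpace A :=
    separableSpace_of_gen (Set.countable_range v) hgen
  have hdense : Dense ((StarAlgebra.adjoin ℂ (Set.range v) : StarSubalgebra ℂ A) : Set A) := by
    have := congrArg (fun S : StarSubalgebra ℂ A => (S : Set A)) hgen
    rw [dense_iff_closure_eq]
    simpa [StarSubalgebra.topologicalClosure_coe] using this
  have hres : ∀ a : A, ∀ ε : ℝ, 0 < ε → ∃ φ : A →⋆ₐ[ℂ] B, ‖a‖ - ε ≤ ‖φ a‖ := by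
    intro a ε hε
    obtain ⟨a₀, ha₀, hd⟩ := hdense.exists_dist_lt a (show 0 < ε / 2 by positivity)
    obtain ⟨φ, hφ⟩ := hkey a₀ ha₀
    refine ⟨φ, ?_⟩
    rw [dist_eq_norm] at hd
    have h1 : ‖φ a₀‖ ≤ ‖φ a‖ + ‖a - a₀‖ := by
      have e : φ a₀ = φ a - φ (a - a₀) := by rw [map_sub]; abel
      rw [e]
      refine (norm_sub_le _ _).trans ?_
      gcongr
      exact NonUnitalStarAlgHom.norm_apply_le _ _
    have h2 : ‖a‖ ≤ ‖a₀‖ + ‖a - a₀‖ := by
      have := norm_add_le a₀ (a - a₀)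
      simpa using this
    linarith
  obtain ⟨ψ, hψ⟩ := exists_seq_of_residual h hres
  exact embeds_of_seq ψ hψ ω hω

/-- A family of Cuntz type exists in every C*-algebra containing a Cuntz pair. -/
lemma exists_cuntzTypeFamily {B : Type*} [CStarAlgebra B] {s₁ s₂ : B} (h : IsCuntzPair s₁ s₂)
    {ι G : Type*} [Fintype ι] [DecidableEq G] (grp : ι → G) (full : G → Prop) :
    ∃ w : ι → B, IsCuntzTypeFamily grp full w := by
  classical
  have hgroup : ∀ g : G, ∃ Wg : {j // grp j = g} → B,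
      (∀ j k, star (Wg j) * Wg k = if j = k then 1 else 0) ∧
      (Nonempty {j // grp j = g} → ∑ j, Wg j * star (Wg j) = 1) := by
    intro g
    by_cases hg : Nonempty {j // grp j = g}
    · obtain ⟨γ, h1, h2⟩ := exists_cuntz_family h {j // grp j = g}
      exact ⟨γ, h1, fun _ => h2⟩
    · exact ⟨fun _ => 0, fun j => absurd ⟨j⟩ hg, fun h => absurd h hg⟩
  choose Wg hW1 hW2 using hgroup
  have hWeq : ∀ (g : G) (j : ι) (hj : grp j = g), Wg (grp j) ⟨j, rfl⟩ = Wg g ⟨j, hj⟩ := by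
    intro g j hj
    subst hj
    rfl
  refine ⟨fun i => Wg (grp i) ⟨i, rfl⟩, ?_, ?_, ?_⟩
  · intro i
    rw [hW1, if_pos rfl]
  · intro i j hij hg
    show star (Wg (grp i) ⟨i, rfl⟩) * Wg (grp j) ⟨j, rfl⟩ = 0
    rw [hWeq (grp i) j hg.symm, hW1, if_neg]
    intro e
    exact hij (congrArg Subtype.val e)
  · intro i _
    have h1 := hW2 (grp i) ⟨⟨i, rfl⟩⟩
    rw [← h1]
    rw [Finset.sum_subtype (p := fun k => grp k = grp i)
      (Finset.univ.filter (fun k => grp k = grp i)) (fun k => by simp)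
      (fun k => Wg (grp k) ⟨k, rfl⟩ * star (Wg (grp k) ⟨k, rfl⟩))]
    refine Finset.sum_congr rfl fun k _ => ?_
    rw [hWeq (grp i) k.1 k.2]

theorem universal_cuntzType_algebra_embeds {ι G : Type*} [Fintype ι] [DecidableEq G]
    (grp : ι → G) (full : G → Prop) (A : Type u) [CStarAlgebra A] (v : ι → A)
    (hA : IsUniversalCuntzTypeAlgebra grp full A v) (B : Type u) [CStarAlgebra B]
    (hB : IsCuntzO2 B) (ω : Ultrafilter ℕ) (hω : (ω : Filter ℕ) ≤ cofinite) :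
    UnitallyEmbedsInUltrapower A B ω := by
  classical
  obtain ⟨hBn, s₁, s₂, h, -⟩ := hB
  haveI : Nontrivial A := by
    obtain ⟨w, hw⟩ := exists_cuntzTypeFamily h grp full
    obtain ⟨φ, -⟩ := hA.univ B w hw
    by_contra hcon
    rw [not_nontrivial_iff_subsingleton] at hcon
    have h1 : (1 : B) = 0 := by
      rw [← map_one φ, Subsingleton.elim (1 : A) 0, map_zero]
    exact one_ne_zero h1
  refine embeds_of_norm_ge v hA.gen h (fun a₀ ha₀ => ?_) ω hω
  refine exists_hom_norm_ge_of_realization v ?_ ha₀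
  intro H _ _ _ π F _
  obtain ⟨W, T, hW1, hW2, hW3, hTn, hWT⟩ := exists_realization₂ (B := B) h grp full
    (fun i => π (v i))
    (fun i x y => by
      rw [inner_map_map_of_star_mul, ← map_star, ← map_mul, hA.rel.iso, map_one]; rfl)
    (fun i j hij hg x y => by
      rw [inner_map_map_of_star_mul, ← map_star, ← map_mul, hA.rel.orth i j hij hg, map_zero]
      simp)
    (fun i hi x => by
      have h1 := congrArg (fun a => π a x) (hA.rel.sum_eq i hi)
      simp only [map_sum, map_mul, map_star, map_one] at h1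
      rw [ContinuousLinearMap.sum_apply] at h1
      simpa [ContinuousLinearMap.star_eq_adjoint] using h1) F
  obtain ⟨φ, hφ⟩ := hA.univ B W ⟨hW1, hW2, hW3⟩
  refine ⟨φ, T, hTn, ?_⟩
  intro i x hx
  obtain ⟨h1, h2⟩ := hWT i x hx
  refine ⟨by rw [hφ]; exact h1, ?_⟩
  rw [map_star, hφ, map_star, ContinuousLinearMap.star_eq_adjoint]
  exact h2

end Vale.Agent.P083
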