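import Vale.Agent.P083.Main2

/-!
# The unital full free product `O₂ * O₂` embeds unitally into the ultrapower of `O₂`
-/

open Filter Topology

namespace Vale.Agent.P083

universe u

lemma sum_filter_fst {C : Type*} [AddCommMonoid C] (f : Fin 2 × Fin 2 → C) (i : Fin 2 × Fin 2) :
    ∑ j ∈ Finset.univ.filter (fun j : Fin 2 × Fin 2 => j.1 = i.1), f j
      = f (i.1, 0) + f (i.1, 1) := by
  rw [Finset.sum_filter, Fintype.sum_prod_type]
  obtain ⟨i1, i2⟩ := i
  fin_cases i1 <;> simp [Fin.sum_univ_two]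

theorem freeProductO2O2_embeds (A : Type u) [CStarAlgebra A] (a₁ a₂ b₁ b₂ : A)
    (hA : IsFreeProductO2O2 A a₁ a₂ b₁ b₂) (B : Type u) [CStarAlgebra B]
    (hB : IsCuntzO2 B) (ω : Ultrafilter ℕ) (hω : (ω : Filter ℕ) ≤ cofinite) :
    UnitallyEmbedsInUltrapower A B ω := by
  let v : Fin 2 × Fin 2 → A := fun p => ![![a₁, a₂], ![b₁, b₂]] p.1 p.2
  refine universal_cuntzType_algebra_embeds (Prod.fst : Fin 2 × Fin 2 → Fin 2) (fun _ => True)
    A v ⟨⟨?_, ?_, ?_⟩, ?_, ?_⟩ B hB ω hω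
  · rintro ⟨i, j⟩
    fin_cases i <;> fin_cases j
    · exact hA.pair_a.iso₁
    · exact hA.pair_a.iso₂
    · exact hA.pair_b.iso₁
    · exact hA.pair_b.iso₂
  · rintro ⟨i, j⟩ ⟨i', j'⟩ hne hg
    obtain rfl : i = i' := hg
    fin_cases i <;> fin_cases j <;> fin_cases j'
    · exact absurd rfl hne
    · exact hA.pair_a.star₁_mul₂
    · exact hA.pair_a.star₂_mul₁
    · exact absurd rfl hne
    · exact absurd rfl hne
    · exact hA.pair_b.star₁_mul₂
    · exact hA.pair_b.star₂_mul₁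
    · exact absurd rfl hne
  · rintro ⟨i, j⟩ -
    rw [sum_filter_fst]
    fin_cases i
    · exact hA.pair_a.sum_eq
    · exact hA.pair_b.sum_eq
  · have : Set.range v = ({a₁, a₂, b₁, b₂} : Set A) := by
      ext x
      constructor
      · rintro ⟨⟨i, j⟩, rfl⟩
        fin_cases i <;> fin_cases j <;> simp [v]
      · intro hx
        simp only [Set.mem_insert_iff, Set.mem_singleton_iff] at hx
        rcases hx with rfl | rfl | rfl | rfl
        · exact ⟨(0, 0), rfl⟩
        · exact ⟨(0, 1), rfl⟩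
        · exact ⟨(1, 0), rfl⟩
        · exact ⟨(1, 1), rfl⟩
    rw [this]
    exact hA.gen
  · intro C _ w hw
    have hp : ∀ i : Fin 2, IsCuntzPair (w (i, 0)) (w (i, 1)) := by
      intro i
      refine ⟨hw.iso _, hw.iso _, ?_⟩
      have := hw.sum_eq (i, 0) trivial
      rwa [sum_filter_fst] at this
    obtain ⟨φ, h1, h2, h3, h4⟩ := hA.univ C _ _ _ _ (hp 0) (hp 1)
    refine ⟨φ, ?_⟩
    rintro ⟨i, j⟩
    fin_cases i <;> fin_cases j
    · exact h1
    · exact h2
    · exact h3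
    · exact h4

end Vale.Agent.P083
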