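import Vale.Agent.P083.Dilate

/-!
# Realization lemma: finitely many isometries on a Hilbert space, seen on a finite dimensional
subspace, can be copied exactly by isometries of a C*-algebra containing a Cuntz pair.
-/

open scoped InnerProductSpace

set_option linter.unusedSectionVars false

namespace Vale.Agent.P083

variable {B : Type*} [CStarAlgebra B]
variable {H : Type*} [NormedAddCommGroup H] [InnerProductSpace ℂ H] [CompleteSpace H]
variable {ι : Type*}

lemma exists_realization [Nontrivial B] [Fintype ι] {s₁ s₂ : B} (h : IsCuntzPair s₁ s₂)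
    (v : ι → H →L[ℂ] H) (hiso : ∀ i x y, ⟪v i x, v i y⟫_ℂ = ⟪x, y⟫_ℂ)
    (F : Submodule ℂ H) [FiniteDimensional ℂ F] :
    ∃ (W : ι → B) (T : H →ₗ[ℂ] B),
      (∀ i, star (W i) * W i = 1) ∧
      (∀ i j, i ≠ j → (∀ x y, ⟪v i x, v j y⟫_ℂ = 0) → star (W i) * W j = 0) ∧
      (∀ x ∈ F, ‖T x‖ = ‖x‖) ∧
      (∀ i, ∀ x ∈ F, W i * T x = T (v i x) ∧
        star (W i) * T x = T (ContinuousLinearMap.adjoint (v i) x)) := by
  classical
  set E : Submodule ℂ H :=
    F ⊔ ⨆ i, F.map (ContinuousLinearMap.adjoint (v i)).toLinearMap with hEdef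
  set E₂ : Submodule ℂ H := E ⊔ ⨆ i, E.map (v i).toLinearMap with hE₂def
  haveI : FiniteDimensional ℂ E := by rw [hEdef]; infer_instance
  haveI : FiniteDimensional ℂ E₂ := by rw [hE₂def]; infer_instance
  have hFE : F ≤ E := le_sup_left
  have hEE₂ : E ≤ E₂ := le_sup_left
  have hadj : ∀ i, ∀ x ∈ F, ContinuousLinearMap.adjoint (v i) x ∈ E := by
    intro i x hx
    refine (le_sup_right : _ ≤ E) ?_
    refine (le_iSup (fun i => F.map (ContinuousLinearMap.adjoint (v i)).toLinearMap) i) ?_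
    exact Submodule.mem_map_of_mem hx
  have hvE : ∀ i, ∀ x ∈ E, v i x ∈ E₂ := by
    intro i x hx
    refine (le_sup_right : _ ≤ E₂) ?_
    refine (le_iSup (fun i => E.map (v i).toLinearMap) i) ?_
    exact Submodule.mem_map_of_mem hx
  set u := stdOrthonormalBasis ℂ E
  set e := stdOrthonormalBasis ℂ E₂
  set N := Module.finrank ℂ E₂
  set T := tauMap s₁ s₂ e
  have hT : ∀ x ∈ E₂, ∀ y ∈ E₂, star (T x) * T y = ⟪x, y⟫_ℂ • (1 : B) :=
    fun x hx y hy => star_tauMap_mul_tauMap h e hx hy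
  let enc : ι → ℕ := fun i => (Fintype.equivFin ι i : ℕ)
  have henc : Function.Injective enc := fun i j hij =>
    (Fintype.equivFin ι).injective (Fin.ext hij)
  let z : ι → B := fun i => s₂ ^ N * ySeq s₁ s₂ (enc i)
  have hTz : ∀ i x, star (T x) * z i = 0 := by
    intro i x
    show star (T x) * (s₂ ^ N * ySeq s₁ s₂ (enc i)) = 0
    rw [← mul_assoc, star_tauMap_mul_pow₂ h e x, zero_mul]
  have hzz : ∀ i j, star (z i) * z j = if i = j then 1 else 0 := by
    intro i j
    show star (s₂ ^ N * ySeq s₁ s₂ (enc i)) * (s₂ ^ N * ySeq s₁ s₂ (enc j)) = _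
    rw [star_mul]
    calc star (ySeq s₁ s₂ (enc i)) * star (s₂ ^ N) * (s₂ ^ N * ySeq s₁ s₂ (enc j))
        = star (ySeq s₁ s₂ (enc i)) * (star (s₂ ^ N) * s₂ ^ N) * ySeq s₁ s₂ (enc j) := by
          noncomm_ring
      _ = _ := by
          rw [h.star_pow₂_mul_pow₂, mul_one, h.star_ySeq_mul]
          simp [henc.eq_iff]
  refine ⟨fun i => wEl T u (v i) (z i), T, ?_, ?_, ?_, ?_⟩
  · intro i
    exact star_wEl_mul_wEl_self T u hT hEE₂ (v i) (hvE i) (hiso i) (z i) (hTz i)
      (by rw [hzz, if_pos rfl])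
  · intro i j hij horth
    exact star_wEl_mul_wEl_orth T u hT hEE₂ (v i) (v j) (hvE i) (hvE j) horth (z i) (z j)
      (hTz i) (hTz j) (by rw [hzz, if_neg hij])
  · intro x hx
    exact norm_tauMap h e (hEE₂ (hFE hx))
  · intro i x hx
    exact ⟨wEl_mul_T T u hT hEE₂ (v i) (z i) (hFE hx),
      star_wEl_mul_T T u hT hEE₂ (v i) (hvE i) (z i) (hTz i) (hEE₂ (hFE hx)) (hadj i x hx)⟩

end Vale.Agent.P083
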