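import Mathlib

/-!
# Existence of norming states on a unital C*-algebra
-/

open scoped ComplexStarModule ComplexOrder

namespace Vale.Agent.P083

variable {A : Type*} [CStarAlgebra A] [PartialOrder A] [StarOrderedRing A]

/-- the cone generated by the positive self-adjoint elements and `w` -/
def normingCone (w : A) : PointedCone ℝ (selfAdjoint A) where
  carrier := {y | ∃ r : ℝ, 0 ≤ r ∧ 0 ≤ (y : A) - r • w}
  add_mem' := by
    rintro a b ⟨r, hr, h1⟩ ⟨r', hr', h2⟩
    refine ⟨r + r', add_nonneg hr hr', ?_⟩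
    have : ((a + b : selfAdjoint A) : A) - (r + r') • w = ((a : A) - r • w) + ((b : A) - r' • w) := by
      rw [add_smul]; push_cast; abel
    rw [this]
    exact add_nonneg h1 h2
  zero_mem' := ⟨0, le_rfl, by simp⟩
  smul_mem' := by
    rintro ⟨c, hc⟩ a ⟨r, hr, h1⟩
    refine ⟨c * r, mul_nonneg hc hr, ?_⟩
    have : (((⟨c, hc⟩ : {c : ℝ // 0 ≤ c}) • a : selfAdjoint A) : A) - (c * r) • w
        = c • ((a : A) - r • w) := by
      rw [smul_sub, smul_smul]; rfl
    rw [this]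
    exact smul_nonneg hc h1

lemma exists_real_state [Nontrivial A] (x₀ : selfAdjoint A) (hx₀ : 0 ≤ (x₀ : A)) :
    ∃ g : selfAdjoint A →ₗ[ℝ] ℝ, g 1 = 1 ∧ (∀ y : selfAdjoint A, 0 ≤ (y : A) → 0 ≤ g y) ∧
      g x₀ = ‖(x₀ : A)‖ := by
  set w : A := (x₀ : A) - algebraMap ℝ A ‖(x₀ : A)‖ with hw
  have hone : (1 : selfAdjoint A) ≠ 0 := by
    intro h
    have := congrArg (Subtype.val) h
    simp at this
  let f0 : selfAdjoint A →ₗ.[ℝ] ℝ := LinearPMap.mkSpanSingleton (1 : selfAdjoint A) (1 : ℝ) hone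
  have hnonneg : ∀ x : f0.domain, (x : selfAdjoint A) ∈ normingCone w → 0 ≤ f0 x := by
    rintro ⟨x, hx⟩ ⟨r, hr, h1⟩
    obtain ⟨t, rfl⟩ := Submodule.mem_span_singleton.mp hx
    have h2 : f0 ⟨t • (1 : selfAdjoint A), hx⟩ = t := by
      have := LinearPMap.mkSpanSingleton'_apply (σ := RingHom.id ℝ) (1 : selfAdjoint A) (1 : ℝ)
        (fun c hc => by
          have := (smul_eq_zero.mp hc).resolve_right hone
          simp [this]) t hx
      have h' : (LinearPMap.mkSpanSingleton' (σ := RingHom.id ℝ) (1 : selfAdjoint A) (1 : ℝ)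
        (fun c hc => by
          have := (smul_eq_zero.mp hc).resolve_right hone
          simp [this])) ⟨t • (1 : selfAdjoint A), hx⟩ = t := by simpa using this
      exact h'
    rw [h2]
    have h3 : r • (x₀ : A) ≤ algebraMap ℝ A (t + r * ‖(x₀ : A)‖) := by
      have : ((t • (1 : selfAdjoint A) : selfAdjoint A) : A) - r • w
          = algebraMap ℝ A (t + r * ‖(x₀ : A)‖) - r • (x₀ : A) := by
        simp only [hw, Algebra.algebraMap_eq_smul_one, smul_sub, add_smul, smul_smul]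
        push_cast
        abel
      simp only at h1
      rw [this] at h1
      exact sub_nonneg.mp h1
    have h4 : 0 ≤ r • (x₀ : A) := smul_nonneg hr hx₀
    have h5 := (le_algebraMap_iff_spectrum_le (IsSelfAdjoint.of_nonneg h4)).mp h3 _
      (CStarAlgebra.norm_mem_spectrum_of_nonneg h4)
    rw [norm_smul, Real.norm_of_nonneg hr] at h5
    linarith
  have hdense : ∀ y : selfAdjoint A, ∃ x : f0.domain, (x : selfAdjoint A) + y ∈ normingCone w := by
    intro y
    refine ⟨⟨‖(y : A)‖ • 1, Submodule.smul_mem _ _ (Submodule.mem_span_singleton_self _)⟩,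
      0, le_rfl, ?_⟩
    have := IsSelfAdjoint.neg_algebraMap_norm_le_self y.2
    simp only [zero_smul, sub_zero]
    have e : ((‖(y : A)‖ • (1 : selfAdjoint A) + y : selfAdjoint A) : A)
        = (y : A) - (-(algebraMap ℝ A ‖(y : A)‖)) := by
      simp [Algebra.algebraMap_eq_smul_one, add_comm]
    rw [e]
    exact sub_nonneg.mpr this
  obtain ⟨g, hg1, hg2⟩ := riesz_extension (normingCone w) f0 hnonneg hdense
  have hg_one : g 1 = 1 := by
    have := hg1 ⟨1, Submodule.mem_span_singleton_self _⟩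
    rw [this]
    exact LinearPMap.mkSpanSingleton'_apply_self _ _ _ _
  have hpos : ∀ y : selfAdjoint A, 0 ≤ (y : A) → 0 ≤ g y := fun y hy =>
    hg2 y ⟨0, le_rfl, by simpa using hy⟩
  refine ⟨g, hg_one, hpos, ?_⟩
  have hwsa : IsSelfAdjoint w := x₀.2.sub (IsSelfAdjoint.algebraMap A (IsSelfAdjoint.all _))
  have e1 : (⟨w, hwsa⟩ : selfAdjoint A) = x₀ - ‖(x₀ : A)‖ • (1 : selfAdjoint A) := by
    ext
    simp [hw, Algebra.algebraMap_eq_smul_one]
  have h1 : 0 ≤ g ⟨w, hwsa⟩ := hg2 _ ⟨1, zero_le_one, by simp⟩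
  have h2 : 0 ≤ g (-⟨w, hwsa⟩) := by
    apply hpos
    have : ((-⟨w, hwsa⟩ : selfAdjoint A) : A) = algebraMap ℝ A ‖(x₀ : A)‖ - (x₀ : A) := by
      simp [hw]
    rw [this, sub_nonneg]
    exact IsSelfAdjoint.le_algebraMap_norm_self x₀.2
  rw [map_neg] at h2
  have h3 : g ⟨w, hwsa⟩ = 0 := le_antisymm (by linarith) h1
  rw [e1, map_sub, map_smul, hg_one] at h3
  simpa [sub_eq_zero] using h3

/-- Every element of a nontrivial unital C*-algebra is normed by a state. -/
theorem exists_norming_state [Nontrivial A] (a : A) :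
    ∃ f : A →ₚ[ℂ] ℂ, f 1 = 1 ∧ f (star a * a) = ((‖a‖ ^ 2 : ℝ) : ℂ) := by
  have hsa : IsSelfAdjoint (star a * a) := IsSelfAdjoint.star_mul_self a
  obtain ⟨g, hg1, hgpos, hgx⟩ := exists_real_state (⟨star a * a, hsa⟩ : selfAdjoint A)
    (star_mul_self_nonneg a)
  let fr : Module.Dual ℝ A := g.comp (realPart : A →ₗ[ℝ] selfAdjoint A)
  let fc : A →ₗ[ℂ] ℂ := Module.Dual.extendRCLike fr
  have key : ∀ x : A, ∀ hx : IsSelfAdjoint x, fc x = ((g ⟨x, hx⟩ : ℝ) : ℂ) := by
    intro x hx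
    have h1 : (ℜ x : selfAdjoint A) = ⟨x, hx⟩ := Subtype.ext hx.coe_realPart
    have h2 : (ℜ (Complex.I • x) : selfAdjoint A) = 0 := by
      rw [realPart_I_smul, imaginaryPart_eq_zero_iff.mpr hx, neg_zero]
    show Module.Dual.extendRCLike fr x = _
    rw [Module.Dual.extendRCLike_apply]
    show ((g (ℜ x) : ℝ) : ℂ) - (RCLike.I : ℂ) * ((g (ℜ ((RCLike.I : ℂ) • x)) : ℝ) : ℂ) = _
    have h3 : (RCLike.I : ℂ) = Complex.I := rfl
    rw [h3, h1, h2]
    simp
  refine ⟨PositiveLinearMap.mk₀ fc ?_, ?_, ?_⟩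
  · intro x hx
    rw [key x (IsSelfAdjoint.of_nonneg hx)]
    exact_mod_cast hgpos ⟨x, _⟩ hx
  · show fc 1 = 1
    rw [key 1 (IsSelfAdjoint.one A)]
    have : (⟨1, IsSelfAdjoint.one A⟩ : selfAdjoint A) = 1 := rfl
    rw [this, hg1]; simp
  · show fc (star a * a) = _
    rw [key _ hsa, hgx]
    simp only [CStarRing.norm_star_mul_self]
    norm_cast
    ring

end Vale.Agent.P083
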