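import Vale.Agent.P083.Transfer
import Vale.Agent.P083.State

/-!
# Universal C*-algebras generated by isometries are residually embeddable in `B`
-/

open scoped InnerProductSpace ComplexOrder

set_option linter.unusedSectionVars false

namespace Vale.Agent.P083

variable {A : Type*} [CStarAlgebra A] {B : Type*} [CStarAlgebra B]
variable {ι : Type*}

section GNS
variable [PartialOrder A] [StarOrderedRing A] (f : A →ₚ[ℂ] ℂ)

/-- the cyclic vector of the GNS representation -/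
noncomputable def gnsVec : f.GNS := ((f.toPreGNS 1 : f.PreGNS) : f.GNS)

lemma gns_apply_vec (a : A) :
    f.gnsStarAlgHom a (gnsVec f) = ((f.toPreGNS a : f.PreGNS) : f.GNS) := by
  show f.gnsNonUnitalStarAlgHom a ((f.toPreGNS 1 : f.PreGNS) : f.GNS) = _
  rw [PositiveLinearMap.gnsNonUnitalStarAlgHom_apply_coe]
  simp

lemma norm_sq_coe_toPreGNS (a : A) :
    ((‖((f.toPreGNS a : f.PreGNS) : f.GNS)‖ ^ 2 : ℝ) : ℂ) = f (star a * a) := by
  rw [UniformSpace.Completion.norm_coe]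
  have := f.preGNS_norm_sq (f.toPreGNS a)
  simpa using this

end GNS

lemma inner_map_map_of_star_mul {H : Type*} [NormedAddCommGroup H] [InnerProductSpace ℂ H]
    [CompleteSpace H] (S S' : H →L[ℂ] H) (x y : H) :
    ⟪S x, S' y⟫_ℂ = ⟪x, (star S * S') y⟫_ℂ := by
  rw [ContinuousLinearMap.star_eq_adjoint, ContinuousLinearMap.mul_apply,
    ContinuousLinearMap.adjoint_inner_right]

/-- Key lemma: for `a₀` in the star-algebra generated by the universal isometries there is a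
unital star-homomorphism into `B` which does not decrease the norm of `a₀`. -/
lemma exists_hom_norm_ge [Nontrivial A] [Nontrivial B] [Fintype ι] {s₁ s₂ : B}
    (h : IsCuntzPair s₁ s₂) (R : ι → ι → Prop) (hR : ∀ i, ¬ R i i) (v : ι → A)
    (hv : ∀ i, star (v i) * v i = 1) (hvR : ∀ i j, R i j → star (v i) * v j = 0)
    (huniv : ∀ w : ι → B, (∀ i, star (w i) * w i = 1) → (∀ i j, R i j → star (w i) * w j = 0) →
      ∃ φ : A →⋆ₐ[ℂ] B, ∀ i, φ (v i) = w i)
    {a₀ : A} (ha₀ : a₀ ∈ StarAlgebra.adjoin ℂ (Set.range v)) :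
    ∃ φ : A →⋆ₐ[ℂ] B, ‖a₀‖ ≤ ‖φ a₀‖ := by
  letI := CStarAlgebra.spectralOrder A
  letI := CStarAlgebra.spectralOrderedRing A
  obtain ⟨f, hf1, hfa⟩ := exists_norming_state a₀
  set π := f.gnsStarAlgHom with hπ
  set ξ := gnsVec f with hξ
  -- norms
  have hξnorm : ‖ξ‖ = 1 := by
    have h1 := norm_sq_coe_toPreGNS f 1
    rw [star_one, one_mul, hf1] at h1
    have h2 : ‖ξ‖ ^ 2 = 1 := by exact_mod_cast h1
    have h3 : ‖ξ‖ ^ 2 = 1 ^ 2 := by rw [h2]; norm_num
    exact (sq_eq_sq₀ (norm_nonneg _) zero_le_one).mp h3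
  have hanorm : ‖π a₀ ξ‖ = ‖a₀‖ := by
    have h1 := norm_sq_coe_toPreGNS f a₀
    rw [hfa, ← gns_apply_vec] at h1
    have h2 : ‖π a₀ ξ‖ ^ 2 = ‖a₀‖ ^ 2 := by exact_mod_cast h1
    exact (sq_eq_sq₀ (norm_nonneg _) (norm_nonneg _)).mp h2
  -- transfer
  obtain ⟨F, hF, htr⟩ := transfers_of_mem_adjoin (B := B) π v ha₀ (Submodule.span ℂ {ξ}) inferInstance
  set F' : Submodule ℂ f.GNS := F ⊔ Submodule.span ℂ {ξ, π a₀ ξ} with hF'
  haveI : FiniteDimensional ℂ F' := by
    rw [hF']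
    haveI : FiniteDimensional ℂ (Submodule.span ℂ ({ξ, π a₀ ξ} : Set f.GNS)) :=
      FiniteDimensional.span_of_finite ℂ (by simp)
    infer_instance
  obtain ⟨W, T, hW1, hW2, hTn, hWT⟩ := exists_realization (B := B) h (fun i => π (v i))
    (fun i x y => by
      rw [inner_map_map_of_star_mul, ← map_star, ← map_mul, hv, map_one]; rfl) F'
  obtain ⟨φ, hφ⟩ := huniv W hW1 (fun i j hij => hW2 i j (fun e => hR i (e ▸ hij))
    (fun x y => by
      rw [inner_map_map_of_star_mul, ← map_star, ← map_mul, hvR i j hij, map_zero]; simp))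
  refine ⟨φ, ?_⟩
  have hI : Intertwines π v F φ T := by
    intro i x hx
    obtain ⟨h1, h2⟩ := hWT i x ((le_sup_left : F ≤ F') hx)
    refine ⟨by rw [hφ]; exact h1, ?_⟩
    rw [map_star, hφ, map_star, ContinuousLinearMap.star_eq_adjoint]
    exact h2
  have h1 := (htr φ T hI ξ (Submodule.mem_span_singleton_self ξ)).1
  have hξF : ξ ∈ F' := (le_sup_right : _ ≤ F') (Submodule.subset_span (by simp))
  have haF : π a₀ ξ ∈ F' := (le_sup_right : _ ≤ F') (Submodule.subset_span (by simp))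
  calc ‖a₀‖ = ‖T (π a₀ ξ)‖ := by rw [hTn _ haF, hanorm]
    _ = ‖φ a₀ * T ξ‖ := by rw [h1]
    _ ≤ ‖φ a₀‖ * ‖T ξ‖ := norm_mul_le _ _
    _ = ‖φ a₀‖ := by rw [hTn _ hξF, hξnorm, mul_one]

end Vale.Agent.P083
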