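import Vale.Agent.P083.Realize

/-!
# Transfer of the intertwining relation from generators to the generated star-algebra
-/

open scoped InnerProductSpace

set_option linter.unusedSectionVars false

namespace Vale.Agent.P083

variable {A : Type*} [CStarAlgebra A] {B : Type*} [CStarAlgebra B]
variable {H : Type*} [NormedAddCommGroup H] [InnerProductSpace ℂ H] [CompleteSpace H]
variable {ι : Type*}

/-- `φ` and `T` intertwine the generators `v i` (and their adjoints) on the subspace `F`. -/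
def Intertwines (π : A →⋆ₐ[ℂ] (H →L[ℂ] H)) (v : ι → A) (F : Submodule ℂ H)
    (φ : A →⋆ₐ[ℂ] B) (T : H →ₗ[ℂ] B) : Prop :=
  ∀ i, ∀ x ∈ F, φ (v i) * T x = T (π (v i) x) ∧ φ (star (v i)) * T x = T (π (star (v i)) x)

lemma Intertwines.mono {π : A →⋆ₐ[ℂ] (H →L[ℂ] H)} {v : ι → A} {F F' : Submodule ℂ H}
    {φ : A →⋆ₐ[ℂ] B} {T : H →ₗ[ℂ] B} (h : Intertwines π v F φ T) (hF : F' ≤ F) :
    Intertwines π v F' φ T := fun i x hx => h i x (hF hx)

/-- the property proved by induction on the star-algebra generated by the `v i` -/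
def Transfers (B : Type*) [CStarAlgebra B] (π : A →⋆ₐ[ℂ] (H →L[ℂ] H)) (v : ι → A) (a : A) : Prop :=
  ∀ X : Submodule ℂ H, FiniteDimensional ℂ X → ∃ F : Submodule ℂ H, FiniteDimensional ℂ F ∧
    ∀ (φ : A →⋆ₐ[ℂ] B) (T : H →ₗ[ℂ] B), Intertwines π v F φ T →
      ∀ x ∈ X, φ a * T x = T (π a x) ∧ φ (star a) * T x = T (π (star a) x)

lemma transfers_of_mem_adjoin (π : A →⋆ₐ[ℂ] (H →L[ℂ] H)) (v : ι → A) {a : A}
    (ha : a ∈ StarAlgebra.adjoin ℂ (Set.range v)) : Transfers B π v a := by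
  induction ha using StarAlgebra.adjoin_induction with
  | mem a ha =>
    obtain ⟨i, rfl⟩ := ha
    intro X hX
    exact ⟨X, hX, fun φ T hI x hx => hI i x hx⟩
  | algebraMap r =>
    intro X hX
    refine ⟨X, hX, fun φ T _ x _ => ?_⟩
    constructor
    · rw [AlgHomClass.commutes, AlgHomClass.commutes, Algebra.algebraMap_eq_smul_one,
        Algebra.algebraMap_eq_smul_one]
      simp
    · rw [← algebraMap_star_comm, AlgHomClass.commutes, AlgHomClass.commutes,
        Algebra.algebraMap_eq_smul_one, Algebra.algebraMap_eq_smul_one]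
      simp
  | add a b _ _ iha ihb =>
    intro X hX
    obtain ⟨Fa, hFa, ha⟩ := iha X hX
    obtain ⟨Fb, hFb, hb⟩ := ihb X hX
    refine ⟨Fa ⊔ Fb, inferInstance, fun φ T hI x hx => ?_⟩
    obtain ⟨h1, h2⟩ := ha φ T (hI.mono le_sup_left) x hx
    obtain ⟨h3, h4⟩ := hb φ T (hI.mono le_sup_right) x hx
    constructor
    · rw [map_add, map_add, add_mul, h1, h3]; simp
    · rw [star_add, map_add, map_add, add_mul, h2, h4]; simp
  | mul a b _ _ iha ihb =>
    intro X hX
    obtain ⟨Fb, hFb, hb⟩ := ihb X hX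
    obtain ⟨Fa, hFa, ha⟩ := iha (X.map (π b).toLinearMap) inferInstance
    obtain ⟨Fa', hFa', ha'⟩ := iha X hX
    obtain ⟨Fb', hFb', hb'⟩ := ihb (X.map (π (star a)).toLinearMap) inferInstance
    refine ⟨(Fb ⊔ Fa) ⊔ (Fa' ⊔ Fb'), inferInstance, fun φ T hI x hx => ?_⟩
    constructor
    · have h1 := (hb φ T (hI.mono (le_sup_left.trans le_sup_left)) x hx).1
      have h2 := (ha φ T (hI.mono (le_sup_right.trans le_sup_left)) (π b x)
        (Submodule.mem_map_of_mem hx)).1
      rw [map_mul, map_mul, mul_assoc, h1, h2]; rfl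
    · have h1 := (ha' φ T (hI.mono (le_sup_left.trans le_sup_right)) x hx).2
      have h2 := (hb' φ T (hI.mono (le_sup_right.trans le_sup_right)) (π (star a) x)
        (Submodule.mem_map_of_mem hx)).2
      rw [star_mul, map_mul, map_mul, mul_assoc, h1, h2]; rfl
  | star a _ iha =>
    intro X hX
    obtain ⟨F, hF, ha⟩ := iha X hX
    refine ⟨F, hF, fun φ T hI x hx => ?_⟩
    obtain ⟨h1, h2⟩ := ha φ T hI x hx
    exact ⟨h2, by rw [star_star]; exact h1⟩

end Vale.Agent.P083
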